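import Vale.Agent.P037G.Row

open Finset Relation

namespace P037Gamma

variable {n K : ℕ}

open scoped Classical

/-- Copies of the pattern on a given ordered pair of rows. -/
noncomputable def M (A : Fin n → Fin n → Bool) (r0 r : Fin n) : ℕ :=
  (univ.filter (fun p : Fin n × Fin n => r0 < r ∧ p.1 < p.2 ∧ A r0 p.1 = true ∧ A r0 p.2 = true ∧
    A r p.1 = true ∧ A r p.2 = false)).card

/-- Total number of copies. -/
noncomputable def NN (A : Fin n → Fin n → Bool) : ℕ := ∑ r0, ∑ r, M A r0 r

/-- The pair of columns `x, y` lies in a sampled row at or before row `r`. -/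
def Wit (A : Fin n → Fin n → Bool) (s : Fin K → Fin n) (r x y : Fin n) : Prop :=
  ∃ i, s i ≤ r ∧ A (s i) x = true ∧ A (s i) y = true

/-- Pairs of columns in row `r` with no witness in the sample. -/
noncomputable def typeA (A : Fin n → Fin n → Bool) (s : Fin K → Fin n) (r : Fin n) : ℕ :=
  (univ.filter (fun p : Fin n × Fin n => p.1 < p.2 ∧ A r p.1 = true ∧ A r p.2 = true ∧
    ¬ Wit A s r p.1 p.2)).card

/-- Copies between the sampled rows and the row `r`. -/
noncomputable def Vr (A : Fin n → Fin n → Bool) (s : Fin K → Fin n) (r : Fin n) : ℕ :=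
  ∑ i, M A (s i) r

/-- A small set of columns destroys all copies on one pair of rows. -/
theorem cover_exists (A : Fin n → Fin n → Bool) (r0 r : Fin n) (hlt : r0 < r) :
    ∃ (Cov : Finset (Fin n)) (σ : ℕ), Cov.card ≤ 2 * σ ∧ σ * σ ≤ M A r0 r ∧
      ∀ x y, x < y → x ∉ Cov → y ∉ Cov →
        ¬ (A r0 x = true ∧ A r0 y = true ∧ A r x = true ∧ A r y = false) := by
  set U := univ.filter (fun x : Fin n => A r0 x = true ∧ A r x = true) with hU
  set V := univ.filter (fun x : Fin n => A r0 x = true ∧ A r x = false) with hV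
  have hdisj : Disjoint U V := by
    rw [Finset.disjoint_left]
    intro x hx hx'
    simp only [hU, hV, mem_filter, mem_univ, true_and] at hx hx'
    rw [hx.2] at hx'
    exact absurd hx'.2 (by simp)
  have hinj : Set.InjOn (fun x : Fin n => (x : ℕ)) ((univ : Finset (Fin n)) : Set (Fin n)) := by
    intro x _ y _ h
    exact Fin.ext h
  obtain ⟨t, z, hz1, hz2, hz3⟩ := P037Diag.cut univ U V (fun x : Fin n => (x : ℕ))
    (Finset.subset_univ _) (Finset.subset_univ _) hdisj hinj
  refine ⟨U.filter (fun x : Fin n => (x : ℕ) < t) ∪ V.filter (fun x : Fin n => t ≤ (x : ℕ)), z,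
    ?_, ?_, ?_⟩
  · calc _ ≤ (U.filter (fun x : Fin n => (x : ℕ) < t)).card +
          (V.filter (fun x : Fin n => t ≤ (x : ℕ))).card :=
          Finset.card_union_le _ _
      _ = 2 * z := by rw [hz1, hz2]; ring
  · refine hz3.trans (Finset.card_le_card ?_)
    rintro ⟨u, v⟩ hp
    simp only [hU, hV, mem_filter, mem_product, mem_univ, true_and] at hp ⊢
    exact ⟨hlt, Fin.lt_def.2 hp.2, hp.1.1.1, hp.1.2.1, hp.1.1.2, hp.1.2.2⟩
  · rintro x y hxy hx hy ⟨h1, h2, h3, h4⟩
    simp only [hU, hV, mem_union, mem_filter, mem_univ, true_and, not_or, not_and, not_lt,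
      not_le] at hx hy
    have h5 := hx.1 ⟨h1, h3⟩
    have h6 := hy.2 ⟨h2, h4⟩
    have := Fin.lt_def.1 hxy
    omega

/-- The lowest elements of a set are few. -/
theorem band_card (O : Finset (Fin n)) (w : ℕ) :
    (O.filter (fun x => (O.filter (fun y => y < x)).card < w)).card ≤ w := by
  set rk : Fin n → ℕ := fun x => (O.filter (fun y => y < x)).card with hrk
  have hinj : Set.InjOn rk (O : Set (Fin n)) := by
    have hstrict : ∀ a ∈ O, ∀ b ∈ O, a < b → rk a < rk b := by
      intro a ha b _ hab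
      apply Finset.card_lt_card
      refine ⟨?_, fun hsub => ?_⟩
      · intro z hz
        simp only [mem_filter] at hz ⊢
        exact ⟨hz.1, hz.2.trans hab⟩
      · have : a ∈ O.filter (fun y => y < a) := hsub (by simp [ha, hab])
        simp at this
    intro a ha b hb hab
    by_contra hne
    rcases lt_or_gt_of_ne hne with h | h
    · have := hstrict a ha b hb h
      omega
    · have := hstrict b hb a ha h
      omega
  have h1 : ((O.filter (fun x => rk x < w)).image rk).card = (O.filter (fun x => rk x < w)).card := by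
    apply Finset.card_image_of_injOn
    intro a ha b hb hab
    simp only [coe_filter, Set.mem_ofPred_eq] at ha hb
    exact hinj ha.1 hb.1 hab
  have h2 : (O.filter (fun x => rk x < w)).image rk ⊆ range w := by
    intro v hv
    obtain ⟨a, ha, rfl⟩ := Finset.mem_image.1 hv
    simp only [mem_filter] at ha
    exact Finset.mem_range.2 ha.2
  have h3 := Finset.card_le_card h2
  rw [h1, Finset.card_range] at h3
  exact h3

/-- The matrix built from a sample. -/
theorem build (A : Fin n → Fin n → Bool) (s : Fin K → Fin n) (g e w : ℕ) (hg : 1 ≤ g) (hK : 1 ≤ K)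
    (hwe : e + K * g ≤ w) :
    ∃ (B : Fin n → Fin n → Bool) (w0 : Fin n → ℕ) (σ : Fin K → Fin K → ℕ),
      (∀ r1 r2 c1 c2, r1 < r2 → c1 < c2 →
        ¬ (B r1 c1 = true ∧ B r1 c2 = true ∧ B r2 c1 = true ∧ B r2 c2 = false)) ∧
      (∀ r, w0 r * (w0 r - 1) ≤ 2 * typeA A s r) ∧
      (∀ i j, σ i j * σ i j ≤ M A (s i) (s j)) ∧
      (univ.filter (fun e' : Fin n × Fin n => A e'.1 e'.2 ≠ B e'.1 e'.2)).card ≤
        n * (∑ i, ∑ j, 2 * σ i j + K * K * w + K * ((K + 1) * g) + K * e) + ∑ r, w0 r +
          n * (univ.filter (fun r => g * e < Vr A s r)).card := by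
  have hcov : ∀ i j : Fin K, ∃ (Cov : Finset (Fin n)) (σ : ℕ), Cov.card ≤ 2 * σ ∧
      σ * σ ≤ M A (s i) (s j) ∧ (s i < s j → ∀ x y, x < y → x ∉ Cov → y ∉ Cov →
        ¬ (A (s i) x = true ∧ A (s i) y = true ∧ A (s j) x = true ∧ A (s j) y = false)) := by
    intro i j
    by_cases h : s i < s j
    · obtain ⟨Cov, σ, h1, h2, h3⟩ := cover_exists A (s i) (s j) h
      exact ⟨Cov, σ, h1, h2, fun _ => h3⟩
    · exact ⟨∅, 0, by simp, by simp, fun h' => absurd h' h⟩
  choose Cov σ hσ1 hσ2 hσ3 using hcov
  set Bad : Finset (Fin n) := univ.biUnion (fun i => univ.biUnion (fun j => Cov i j)) with hBad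
  set G : Finset (Fin n) := univ \ Bad with hG
  have hGmem : ∀ x, x ∈ G ↔ ∀ i j, x ∉ Cov i j := by
    intro x
    simp [hG, hBad]
  set C : Fin K → Finset (Fin n) := fun i => G.filter (fun x => A (s i) x = true) with hC
  have hCmem : ∀ i x, x ∈ C i ↔ x ∈ G ∧ A (s i) x = true := by
    intro i x
    simp [hC]
  have hcl : ∀ i j, s i ≤ s j → ∀ x y, x < y → x ∈ C i → y ∈ C i → x ∈ C j → y ∈ C j := by
    intro i j hij x y hxy hxi hyi hxj
    rw [hCmem] at hxi hyi hxj ⊢
    refine ⟨hyi.1, ?_⟩
    rcases lt_or_eq_of_le hij with h | h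
    · by_contra hn
      have hn' : A (s j) y = false := by simpa using hn
      exact hσ3 i j h x y hxy ((hGmem x).1 hxi.1 i j) ((hGmem y).1 hyi.1 i j)
        ⟨hxi.2, hyi.2, hxj.2, hn'⟩
    · rw [← h]
      exact hyi.2
  set band : Fin K → Fin K → Finset (Fin n) := fun i j =>
    (C i ∩ C j).filter (fun x => ((C i ∩ C j).filter (fun y => y < x)).card < w) with hband
  set Del : Finset (Fin n) := univ.biUnion (fun i => univ.biUnion (fun j => band i j)) with hDel
  set Vp : Finset (Fin n) := G \ Del with hVp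
  have hVpG : ∀ x ∈ Vp, x ∈ G := fun x hx => (Finset.mem_sdiff.1 hx).1
  have hband' : ∀ i j, s i < s j → ∀ t ∈ Vp, t ∈ C i → t ∈ C j →
      w ≤ ((C i ∩ C j).filter (fun x => x < t)).card := by
    intro i j _ t ht hti htj
    by_contra hlt
    have h1 : t ∈ band i j := by
      simp only [hband, mem_filter, mem_inter]
      exact ⟨⟨hti, htj⟩, not_le.1 hlt⟩
    have h2 : t ∈ Del := by
      simp only [hDel, mem_biUnion, mem_univ, true_and]
      exact ⟨i, j, h1⟩
    exact (Finset.mem_sdiff.1 ht).2 h2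
  have hBadcard : Bad.card ≤ ∑ i, ∑ j, 2 * σ i j := by
    calc Bad.card ≤ ∑ i, (univ.biUnion (fun j => Cov i j)).card := Finset.card_biUnion_le
      _ ≤ ∑ i, ∑ j, (Cov i j).card := Finset.sum_le_sum fun i _ => Finset.card_biUnion_le
      _ ≤ ∑ i, ∑ j, 2 * σ i j :=
        Finset.sum_le_sum fun i _ => Finset.sum_le_sum fun j _ => hσ1 i j
  have hDelcard : Del.card ≤ K * K * w := by
    calc Del.card ≤ ∑ i, (univ.biUnion (fun j => band i j)).card := Finset.card_biUnion_le
      _ ≤ ∑ i, ∑ j, (band i j).card := Finset.sum_le_sum fun i _ => Finset.card_biUnion_le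
      _ ≤ ∑ _i : Fin K, ∑ _j : Fin K, w :=
        Finset.sum_le_sum fun i _ => Finset.sum_le_sum fun j _ => band_card _ w
      _ = K * K * w := by
        simp only [Finset.sum_const, Finset.card_univ, Fintype.card_fin, smul_eq_mul]
        ring
  have hVpc : (univ \ Vp).card ≤ ∑ i, ∑ j, 2 * σ i j + K * K * w := by
    have hsub : univ \ Vp ⊆ Bad ∪ Del := by
      intro x hx
      simp only [hVp, hG, mem_sdiff, mem_univ, true_and, not_and, not_not] at hx
      by_cases h : x ∈ Bad
      · exact Finset.mem_union_left _ h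
      · exact Finset.mem_union_right _ (hx h)
    have h1 := (Finset.card_le_card hsub).trans (Finset.card_union_le _ _)
    omega
  set S : Fin n → Finset (Fin n) := fun r => univ.filter (fun x => A r x = true) with hS
  have hSmem : ∀ r x, x ∈ S r ↔ A r x = true := by
    intro r x
    simp [hS]
  have hinv : ∀ r, Vr A s r ≤ g * e → ∀ i, s i ≤ r → Inv (C i) (S r) ≤ g * e := by
    intro r hr i hi
    refine le_trans ?_ hr
    have hle : M A (s i) r ≤ Vr A s r :=
      Finset.single_le_sum (f := fun i => M A (s i) r) (fun _ _ => Nat.zero_le _) (Finset.mem_univ i)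
    refine le_trans ?_ hle
    unfold Inv M
    apply Finset.card_le_card
    rintro ⟨a, b⟩ hp
    simp only [mem_filter, mem_product, hCmem, hSmem, mem_univ, true_and] at hp ⊢
    obtain ⟨⟨⟨_, ha⟩, _, hb⟩, hab, hra, hrb⟩ := hp
    have hlt : s i < r := by
      apply lt_of_le_of_ne hi
      intro he
      rw [he] at hb
      exact hrb hb
    exact ⟨hlt, hab, ha, hb, hra, by simpa using hrb⟩
  have hrow : ∀ r, ∃ (Q : Finset (Fin n)) (w00 : ℕ),
      (Q = ∅ ∨ ∃ q, ∀ y, y ∈ Q ↔ Reach C s Vp r q y) ∧
      w00 * (w00 - 1) ≤ 2 * typeA A s r ∧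
      (S r \ Q).card + (Q \ S r).card ≤
        (if g * e < Vr A s r then n else (univ \ Vp).card + w00 + K * ((K + 1) * g) + K * e) := by
    intro r
    by_cases hr : g * e < Vr A s r
    · refine ⟨∅, 0, Or.inl rfl, by simp, ?_⟩
      rw [if_pos hr]
      simp only [Finset.sdiff_empty, Finset.empty_sdiff, Finset.card_empty, add_zero]
      simpa using Finset.card_le_univ (S r)
    · obtain ⟨Q, w00, h1, h2, h3⟩ := row_fix (C := C) (τ := s) (Vp := Vp) (S r) r hg hK hcl hband'
        (hinv r (not_lt.1 hr)) hwe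
      refine ⟨Q, w00, h1, h2.trans (Nat.mul_le_mul_left 2 ?_), ?_⟩
      · unfold typeA
        apply Finset.card_le_card
        rintro ⟨a, b⟩ hp
        simp only [mem_filter, mem_product, mem_inter, hSmem, mem_univ, true_and] at hp ⊢
        obtain ⟨⟨⟨ha, haV⟩, hb, hbV⟩, hab, hnr⟩ := hp
        refine ⟨hab, ha, hb, ?_⟩
        rintro ⟨i, hi, h4, h5⟩
        apply hnr
        refine ReflTransGen.single ⟨haV, hbV, hab, i, hi, ?_, ?_⟩
        · exact (hCmem i a).2 ⟨hVpG a haV, h4⟩
        · exact (hCmem i b).2 ⟨hVpG b hbV, h5⟩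
      · rw [if_neg hr]
        exact h3
  choose Q w0 hQ1 hQ2 hQ3 using hrow
  refine ⟨fun r c => decide (c ∈ Q r), w0, σ, ?_, hQ2, hσ2, ?_⟩
  · rintro r1 r2 c1 c2 hr hc ⟨h1, h2, h3, h4⟩
    simp only [decide_eq_true_eq, decide_eq_false_iff_not] at h1 h2 h3 h4
    have hreach : Reach C s Vp r1 c1 c2 := by
      rcases hQ1 r1 with he | ⟨q, hq⟩
      · rw [he] at h1
        simp at h1
      · exact reach_chain' hcl ((hq c1).1 h1) ((hq c2).1 h2) hc.le
    have hreach2 := reach_mono hr.le hreach
    rcases hQ1 r2 with he | ⟨q, hq⟩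
    · rw [he] at h3
      simp at h3
    · exact h4 ((hq c2).2 (ReflTransGen.trans ((hq c1).1 h3) hreach2))
  · -- counting differences
    set F : Fin n → Finset (Fin n) := fun r => (S r \ Q r) ∪ (Q r \ S r) with hF
    have hFcard : ∀ r, (F r).card ≤ (if g * e < Vr A s r then n else
        (univ \ Vp).card + w0 r + K * ((K + 1) * g) + K * e) := fun r =>
      (Finset.card_union_le _ _).trans (hQ3 r)
    have hsub : univ.filter (fun e' : Fin n × Fin n => A e'.1 e'.2 ≠ decide (e'.2 ∈ Q e'.1)) ⊆
        univ.biUnion (fun r => (F r).image (fun c => (r, c))) := by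
      rintro ⟨r, c⟩ he
      simp only [mem_filter, mem_univ, true_and] at he
      simp only [mem_biUnion, mem_univ, true_and, mem_image, Prod.mk.injEq]
      refine ⟨r, c, ?_, rfl, rfl⟩
      simp only [hF, mem_union, mem_sdiff, hSmem]
      by_cases h1 : A r c = true
      · left
        refine ⟨h1, fun h2 => he ?_⟩
        simp [h1, h2]
      · right
        refine ⟨?_, h1⟩
        by_contra h2
        apply he
        have h3 : A r c = false := by simpa using h1
        simp [h3, h2]
    calc _ ≤ (univ.biUnion (fun r => (F r).image (fun c => (r, c)))).card :=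
          Finset.card_le_card hsub
      _ ≤ ∑ r, ((F r).image (fun c => (r, c))).card := Finset.card_biUnion_le
      _ ≤ ∑ r, (F r).card := Finset.sum_le_sum fun r _ => Finset.card_image_le
      _ ≤ ∑ r, (if g * e < Vr A s r then n else
            (univ \ Vp).card + w0 r + K * ((K + 1) * g) + K * e) :=
          Finset.sum_le_sum fun r _ => hFcard r
      _ ≤ ∑ r, (((∑ i, ∑ j, 2 * σ i j + K * K * w + K * ((K + 1) * g) + K * e) + w0 r) +
            (if g * e < Vr A s r then n else 0)) := by
          apply Finset.sum_le_sum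
          intro r _
          split_ifs with h
          · omega
          · omega
      _ = _ := by
          rw [Finset.sum_add_distrib, Finset.sum_add_distrib]
          simp only [Finset.sum_const, Finset.card_univ, Fintype.card_fin, smul_eq_mul]
          rw [← Finset.sum_filter, Finset.sum_const, smul_eq_mul]
          ring

end P037Gamma
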