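import Vale.Agent.P037G.Build

open Finset

namespace P037Gamma

variable {n K : ℕ}

open scoped Classical

theorem sum_Vr (A : Fin n → Fin n → Bool) :
    n * ∑ s : Fin K → Fin n, ∑ r, Vr A s r = K * n ^ K * NN A := by
  have h2 : ∑ s : Fin K → Fin n, ∑ r, ∑ i, M A (s i) r =
      ∑ r, ∑ i, ∑ s : Fin K → Fin n, M A (s i) r := by
    rw [Finset.sum_comm]
    apply Finset.sum_congr rfl
    intro r _
    rw [Finset.sum_comm]
  have h3 : ∀ (r : Fin n) (i : Fin K), n * ∑ s : Fin K → Fin n, M A (s i) r =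
      n ^ K * ∑ a, M A a r := by
    intro r i
    have := P037Diag.sum_eval (ι := Fin K) (α := Fin n) i (fun a => M A a r)
    simpa using this
  unfold Vr
  calc n * ∑ s : Fin K → Fin n, ∑ r, ∑ i, M A (s i) r
      = ∑ r, ∑ i, (n * ∑ s : Fin K → Fin n, M A (s i) r) := by
        rw [h2]; simp_rw [Finset.mul_sum]
    _ = ∑ r : Fin n, ∑ _i : Fin K, (n ^ K * ∑ a, M A a r) := by simp_rw [h3]
    _ = K * n ^ K * NN A := by
        simp only [Finset.sum_const, Finset.card_univ, Fintype.card_fin, smul_eq_mul]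
        unfold NN
        rw [Finset.sum_comm (s := univ) (t := univ) (f := fun r0 r => M A r0 r)]
        simp only [Finset.mul_sum]
        apply Finset.sum_congr rfl
        intro c _
        apply Finset.sum_congr rfl
        intro a _
        ring

theorem M_self (A : Fin n → Fin n → Bool) (a : Fin n) : M A a a = 0 := by
  unfold M
  simp

/-- The sum of copies over sampled pairs of rows, averaged over the sample. -/
theorem sum_Z (A : Fin n → Fin n → Bool) :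
    n * (n * ∑ s : Fin K → Fin n, ∑ i, ∑ j, M A (s i) (s j)) ≤ K * K * n ^ K * NN A := by
  have h3 : ∀ (i j : Fin K), n * (n * ∑ s : Fin K → Fin n, M A (s i) (s j)) ≤ n ^ K * NN A := by
    intro i j
    by_cases hij : i = j
    · subst hij
      simp [M_self]
    · have := P037Diag.sum_eval2 (ι := Fin K) (α := Fin n) i j hij (fun a b => M A a b)
      simp only [Fintype.card_fin, Fintype.card_pi, Finset.prod_const, Finset.card_univ] at this
      unfold NN
      exact le_of_eq this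
  calc n * (n * ∑ s : Fin K → Fin n, ∑ i, ∑ j, M A (s i) (s j))
      = ∑ i, ∑ j, (n * (n * ∑ s : Fin K → Fin n, M A (s i) (s j))) := by
        have e : ∑ s : Fin K → Fin n, ∑ i, ∑ j, M A (s i) (s j) =
            ∑ i, ∑ j, ∑ s : Fin K → Fin n, M A (s i) (s j) := by
          rw [Finset.sum_comm]
          apply Finset.sum_congr rfl
          intro i _
          rw [Finset.sum_comm]
        rw [e]
        simp only [Finset.mul_sum]
    _ ≤ ∑ _i : Fin K, ∑ _j : Fin K, (n ^ K * NN A) :=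
        Finset.sum_le_sum fun i _ => Finset.sum_le_sum fun j _ => h3 i j
    _ = K * K * n ^ K * NN A := by
        simp only [Finset.sum_const, Finset.card_univ, Fintype.card_fin, smul_eq_mul]
        ring

theorem not_wit_iff (A : Fin n → Fin n → Bool) (s : Fin K → Fin n) (r x y : Fin n) :
    ¬ Wit A s r x y ↔
      ∀ i, ¬ (s i ≤ r ∧ s i ∈ univ.filter (fun d => A d x = true ∧ A d y = true)) := by
  unfold Wit
  simp only [mem_filter, mem_univ, true_and]
  push Not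
  rfl

/-- Unwitnessed pairs, summed over rows and averaged over the sample. -/
theorem sum_typeA (A : Fin n → Fin n → Bool) :
    (K + 1) * ∑ s : Fin K → Fin n, ∑ r, typeA A s r ≤ n ^ 2 * n ^ (K + 1) := by
  have h1 : ∀ (s : Fin K → Fin n) (r : Fin n), typeA A s r ≤
      ∑ p : Fin n × Fin n, (if (A r p.1 = true ∧ A r p.2 = true) ∧ ¬ Wit A s r p.1 p.2
        then 1 else 0) := by
    intro s r
    unfold typeA
    rw [Finset.card_filter]
    apply Finset.sum_le_sum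
    intro p _
    by_cases h : (A r p.1 = true ∧ A r p.2 = true) ∧ ¬ Wit A s r p.1 p.2
    · rw [if_pos h]
      split_ifs <;> omega
    · rw [if_neg h, if_neg]
      intro h'
      exact h ⟨⟨h'.2.1, h'.2.2.1⟩, h'.2.2.2⟩
  have h2 : ∀ p : Fin n × Fin n, (K + 1) * ∑ s : Fin K → Fin n, ∑ r,
      (if (A r p.1 = true ∧ A r p.2 = true) ∧ ¬ Wit A s r p.1 p.2 then 1 else 0) ≤ n ^ (K + 1) := by
    intro p
    set W := univ.filter (fun d => A d p.1 = true ∧ A d p.2 = true) with hW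
    have h3 : ∑ s : Fin K → Fin n, ∑ r,
        (if (A r p.1 = true ∧ A r p.2 = true) ∧ ¬ Wit A s r p.1 p.2 then 1 else 0) =
        ∑ r ∈ W, (univ.filter (fun s : Fin K → Fin n => ∀ i, ¬ (s i ≤ r ∧ s i ∈ W))).card := by
      rw [Finset.sum_comm]
      rw [hW, Finset.sum_filter]
      apply Finset.sum_congr rfl
      intro r _
      by_cases hc : A r p.1 = true ∧ A r p.2 = true
      · rw [if_pos hc, Finset.card_filter]
        apply Finset.sum_congr rfl
        intro s _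
        have := not_wit_iff A s r p.1 p.2
        simp only [hc, and_self, true_and]
        by_cases hw : ¬ Wit A s r p.1 p.2
        · rw [if_pos hw, if_pos (this.1 hw)]
        · rw [if_neg hw, if_neg]
          intro h'
          exact hw (this.2 h')
      · rw [if_neg hc]
        apply Finset.sum_eq_zero
        intro s _
        rw [if_neg]
        intro h'
        exact hc h'.1
    rw [h3]
    exact P037Diag.uncovered_bound K W
  calc (K + 1) * ∑ s : Fin K → Fin n, ∑ r, typeA A s r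
      ≤ (K + 1) * ∑ s : Fin K → Fin n, ∑ r, ∑ p : Fin n × Fin n,
        (if (A r p.1 = true ∧ A r p.2 = true) ∧ ¬ Wit A s r p.1 p.2 then 1 else 0) :=
        Nat.mul_le_mul_left _ (Finset.sum_le_sum fun s _ => Finset.sum_le_sum fun c _ => h1 s c)
    _ = ∑ p : Fin n × Fin n, ((K + 1) * ∑ s : Fin K → Fin n, ∑ r,
        (if (A r p.1 = true ∧ A r p.2 = true) ∧ ¬ Wit A s r p.1 p.2 then 1 else 0)) := by
        have e : ∑ s : Fin K → Fin n, ∑ r, ∑ p : Fin n × Fin n,
            (if (A r p.1 = true ∧ A r p.2 = true) ∧ ¬ Wit A s r p.1 p.2 then 1 else 0) =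
            ∑ p : Fin n × Fin n, ∑ s : Fin K → Fin n, ∑ r,
            (if (A r p.1 = true ∧ A r p.2 = true) ∧ ¬ Wit A s r p.1 p.2 then 1 else 0) := by
          calc _ = ∑ s : Fin K → Fin n, ∑ p : Fin n × Fin n, ∑ r,
                (if (A r p.1 = true ∧ A r p.2 = true) ∧ ¬ Wit A s r p.1 p.2 then 1 else 0) :=
                Finset.sum_congr rfl fun s _ => Finset.sum_comm
            _ = _ := Finset.sum_comm
        rw [e, Finset.mul_sum]
    _ ≤ ∑ _p : Fin n × Fin n, n ^ (K + 1) := Finset.sum_le_sum fun p _ => h2 p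
    _ = n ^ 2 * n ^ (K + 1) := by
        simp [Finset.card_univ, Fintype.card_prod, sq]

/-- A sample on which the three random quantities are all at most three times their mean. -/
theorem choose_sample (A : Fin n → Fin n → Bool) (hK : 1 ≤ K) (hn : 1 ≤ n) (hN : 1 ≤ NN A) :
    ∃ s : Fin K → Fin n,
      ((∑ r, typeA A s r : ℕ) : ℝ) ≤ 3 * ((n : ℝ) ^ 3 / ((K : ℝ) + 1)) ∧
      ((∑ r, Vr A s r : ℕ) : ℝ) ≤ 3 * ((K : ℝ) * (NN A : ℝ) / (n : ℝ)) ∧
      ((∑ i, ∑ j, M A (s i) (s j) : ℕ) : ℝ) ≤ 3 * ((K : ℝ) ^ 2 * (NN A : ℝ) / (n : ℝ) ^ 2) := by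
  have hnR : (0 : ℝ) < n := by exact_mod_cast hn
  have hKR : (0 : ℝ) < K := by exact_mod_cast hK
  have hNR : (0 : ℝ) < NN A := by exact_mod_cast hN
  set E1 : ℝ := (n : ℝ) ^ 3 / ((K : ℝ) + 1) with hE1
  set E2 : ℝ := (K : ℝ) * (NN A : ℝ) / (n : ℝ) with hE2
  set E3 : ℝ := (K : ℝ) ^ 2 * (NN A : ℝ) / (n : ℝ) ^ 2 with hE3
  have hE1pos : 0 < E1 := by positivity
  have hE2pos : 0 < E2 := by positivity
  have hE3pos : 0 < E3 := by positivity
  have hT : (0 : ℝ) < (n : ℝ) ^ K := by positivity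
  have hX : ((∑ s : Fin K → Fin n, ∑ r, typeA A s r : ℕ) : ℝ) ≤ (n : ℝ) ^ K * E1 := by
    have h := sum_typeA (K := K) A
    have h' : ((K : ℝ) + 1) * ((∑ s : Fin K → Fin n, ∑ r, typeA A s r : ℕ) : ℝ) ≤
        (n : ℝ) ^ 2 * (n : ℝ) ^ (K + 1) := by exact_mod_cast h
    have hK1 : (0 : ℝ) < (K : ℝ) + 1 := by positivity
    have e : (n : ℝ) ^ K * E1 = ((n : ℝ) ^ 2 * (n : ℝ) ^ (K + 1)) / ((K : ℝ) + 1) := by
      rw [hE1]
      field_simp
      ring
    rw [e, le_div_iff₀ hK1]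
    linarith
  have hY : ((∑ s : Fin K → Fin n, ∑ r, Vr A s r : ℕ) : ℝ) ≤ (n : ℝ) ^ K * E2 := by
    have h := sum_Vr (K := K) A
    have h' : (n : ℝ) * ((∑ s : Fin K → Fin n, ∑ r, Vr A s r : ℕ) : ℝ) =
        (K : ℝ) * (n : ℝ) ^ K * (NN A : ℝ) := by exact_mod_cast h
    have e : (n : ℝ) ^ K * E2 = ((K : ℝ) * (n : ℝ) ^ K * (NN A : ℝ)) / (n : ℝ) := by
      rw [hE2]
      field_simp
    rw [e, le_div_iff₀ hnR]
    linarith
  have hZ : ((∑ s : Fin K → Fin n, ∑ i, ∑ j, M A (s i) (s j) : ℕ) : ℝ) ≤ (n : ℝ) ^ K * E3 := by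
    have h := sum_Z (K := K) A
    have h' : (n : ℝ) * ((n : ℝ) * ((∑ s : Fin K → Fin n, ∑ i, ∑ j, M A (s i) (s j) : ℕ) : ℝ)) ≤
        (K : ℝ) * (K : ℝ) * (n : ℝ) ^ K * (NN A : ℝ) := by exact_mod_cast h
    have e : (n : ℝ) ^ K * E3 =
        ((K : ℝ) * (K : ℝ) * (n : ℝ) ^ K * (NN A : ℝ)) / (n : ℝ) ^ 2 := by
      rw [hE3]
      field_simp
    rw [e, le_div_iff₀ (by positivity)]
    nlinarith
  have hne : (univ : Finset (Fin K → Fin n)).Nonempty := by
    have : Nonempty (Fin n) := ⟨⟨0, hn⟩⟩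
    exact Finset.univ_nonempty
  have hcard : ((univ : Finset (Fin K → Fin n)).card : ℝ) = (n : ℝ) ^ K := by
    simp
  have hsum : ∑ s : Fin K → Fin n,
      (((∑ r, typeA A s r : ℕ) : ℝ) / E1 + ((∑ r, Vr A s r : ℕ) : ℝ) / E2 +
        ((∑ i, ∑ j, M A (s i) (s j) : ℕ) : ℝ) / E3) ≤ ∑ _s : Fin K → Fin n, (3 : ℝ) := by
    rw [Finset.sum_add_distrib, Finset.sum_add_distrib, ← Finset.sum_div, ← Finset.sum_div,
      ← Finset.sum_div]
    have c1 : ∑ s : Fin K → Fin n, ((∑ r, typeA A s r : ℕ) : ℝ) =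
        ((∑ s : Fin K → Fin n, ∑ r, typeA A s r : ℕ) : ℝ) := by push_cast; rfl
    have c2 : ∑ s : Fin K → Fin n, ((∑ r, Vr A s r : ℕ) : ℝ) =
        ((∑ s : Fin K → Fin n, ∑ r, Vr A s r : ℕ) : ℝ) := by push_cast; rfl
    have c3 : ∑ s : Fin K → Fin n, ((∑ i, ∑ j, M A (s i) (s j) : ℕ) : ℝ) =
        ((∑ s : Fin K → Fin n, ∑ i, ∑ j, M A (s i) (s j) : ℕ) : ℝ) := by push_cast; rfl
    rw [c1, c2, c3]
    have h3 := div_le_of_le_mul₀ hE1pos.le hT.le hX
    have h4 := div_le_of_le_mul₀ hE2pos.le hT.le hY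
    have h6 := div_le_of_le_mul₀ hE3pos.le hT.le hZ
    have h5 : ∑ _s : Fin K → Fin n, (3 : ℝ) = 3 * (n : ℝ) ^ K := by
      rw [Finset.sum_const, nsmul_eq_mul, hcard]
      ring
    rw [h5]
    linarith
  obtain ⟨s, -, hs⟩ := Finset.exists_le_of_sum_le hne hsum
  have p1 : 0 ≤ ((∑ r, typeA A s r : ℕ) : ℝ) / E1 := by positivity
  have p2 : 0 ≤ ((∑ r, Vr A s r : ℕ) : ℝ) / E2 := by positivity
  have p3 : 0 ≤ ((∑ i, ∑ j, M A (s i) (s j) : ℕ) : ℝ) / E3 := by positivity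
  refine ⟨s, ?_, ?_, ?_⟩
  · have : ((∑ r, typeA A s r : ℕ) : ℝ) / E1 ≤ 3 := by linarith
    rwa [div_le_iff₀ hE1pos] at this
  · have : ((∑ r, Vr A s r : ℕ) : ℝ) / E2 ≤ 3 := by linarith
    rwa [div_le_iff₀ hE2pos] at this
  · have : ((∑ i, ∑ j, M A (s i) (s j) : ℕ) : ℝ) / E3 ≤ 3 := by linarith
    rwa [div_le_iff₀ hE3pos] at this

end P037Gamma
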