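import Vale.Agent.P037G.Expect

open Finset

namespace P037Gamma

variable {n K : ℕ}

open scoped Classical

theorem num_rows (e m N k g z : ℝ) (he0 : 0 < e) (hm : 0 < m) (hN0 : 0 ≤ N) (hk0 : 0 < k)
    (hk2 : k * e ^ 2 ≤ 97) (hN : N < e ^ 15 * m ^ 4 / (2 * 10 ^ 17))
    (hg0 : 0 < g) (hg1 : e * m / (80 * k ^ 3) ≤ g) (hz0 : 0 ≤ z)
    (hz : z * (k * g ^ 2) ≤ 3 * (k * N / m)) : m * z ≤ e * m ^ 2 / 8 := by
  have hk6 : k ^ 6 * e ^ 12 ≤ 97 ^ 6 := by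
    have : (k * e ^ 2) ^ 6 ≤ 97 ^ 6 := pow_le_pow_left₀ (by positivity) hk2 6
    calc k ^ 6 * e ^ 12 = (k * e ^ 2) ^ 6 := by ring
      _ ≤ _ := this
  have hk3 : 0 < k ^ 3 := by positivity
  have h6 : e * m ≤ 80 * k ^ 3 * g := by
    rw [div_le_iff₀ (by positivity)] at hg1
    linarith
  have h7 : e ^ 2 * m ^ 2 ≤ 6400 * k ^ 6 * g ^ 2 := by
    have h8 : (e * m) ^ 2 ≤ (80 * k ^ 3 * g) ^ 2 := pow_le_pow_left₀ (by positivity) h6 2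
    calc e ^ 2 * m ^ 2 = (e * m) ^ 2 := by ring
      _ ≤ (80 * k ^ 3 * g) ^ 2 := h8
      _ = 6400 * k ^ 6 * g ^ 2 := by ring
  have h8 : z * g ^ 2 * m ≤ 3 * N := by
    have e1 : 3 * (k * N / m) = k * (3 * N / m) := by ring
    have e2 : z * (k * g ^ 2) = k * (z * g ^ 2) := by ring
    rw [e1, e2] at hz
    have h9 : z * g ^ 2 ≤ 3 * N / m := le_of_mul_le_mul_left hz hk0
    rwa [le_div_iff₀ hm] at h9
  have h9 : (m * z) * (e ^ 2 * m ^ 2) ≤ (m * z) * (6400 * k ^ 6 * g ^ 2) :=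
    mul_le_mul_of_nonneg_left h7 (by positivity)
  have h10 : (m * z) * (6400 * k ^ 6 * g ^ 2) = 6400 * k ^ 6 * (z * g ^ 2 * m) := by ring
  have h11 : 6400 * k ^ 6 * (z * g ^ 2 * m) ≤ 6400 * k ^ 6 * (3 * N) :=
    mul_le_mul_of_nonneg_left h8 (by positivity)
  have hpos : 0 < e ^ 14 * m ^ 2 := by positivity
  have h12 : (m * z) * (e ^ 14 * m ^ 2) ≤ 19200 * (k ^ 6 * e ^ 12) * N := by
    have h13 : (m * z) * (e ^ 2 * m ^ 2) ≤ 19200 * k ^ 6 * N := by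
      calc _ ≤ (m * z) * (6400 * k ^ 6 * g ^ 2) := h9
        _ = 6400 * k ^ 6 * (z * g ^ 2 * m) := h10
        _ ≤ 6400 * k ^ 6 * (3 * N) := h11
        _ = 19200 * k ^ 6 * N := by ring
    have h14 := mul_le_mul_of_nonneg_right h13 (by positivity : 0 ≤ e ^ 12)
    calc (m * z) * (e ^ 14 * m ^ 2) = (m * z) * (e ^ 2 * m ^ 2) * e ^ 12 := by ring
      _ ≤ 19200 * k ^ 6 * N * e ^ 12 := h14
      _ = _ := by ring
  have h13 : 19200 * (k ^ 6 * e ^ 12) * N ≤ 19200 * 97 ^ 6 * N := by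
    apply mul_le_mul_of_nonneg_right _ hN0
    linarith
  have h14 : 19200 * 97 ^ 6 * N ≤ 19200 * 97 ^ 6 * (e ^ 15 * m ^ 4 / (2 * 10 ^ 17)) :=
    mul_le_mul_of_nonneg_left hN.le (by positivity)
  have h15 : 19200 * 97 ^ 6 * (e ^ 15 * m ^ 4 / (2 * 10 ^ 17)) ≤
      (e * m ^ 2 / 8) * (e ^ 14 * m ^ 2) := by
    have e1 : (e * m ^ 2 / 8) * (e ^ 14 * m ^ 2) = (1 / 8) * (e ^ 15 * m ^ 4) := by ring
    have e2 : (19200 : ℝ) * 97 ^ 6 * (e ^ 15 * m ^ 4 / (2 * 10 ^ 17)) =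
        (19200 * 97 ^ 6 / (2 * 10 ^ 17)) * (e ^ 15 * m ^ 4) := by ring
    rw [e1, e2]
    apply mul_le_mul_of_nonneg_right (by norm_num) (by positivity)
  exact le_of_mul_le_mul_right (h12.trans (h13.trans (h14.trans h15))) hpos

theorem num_cols (e m N k b : ℝ) (he0 : 0 < e) (he1 : e < 1) (hm : 0 < m) (hk0 : 0 < k)
    (hk2 : k * e ^ 2 ≤ 97) (hN : N < e ^ 15 * m ^ 4 / (2 * 10 ^ 17)) (hb0 : 0 ≤ b)
    (hb : b ^ 2 ≤ k ^ 2 * (3 * (k ^ 2 * N / m ^ 2))) : m * (2 * b) ≤ e * m ^ 2 / 8 := by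
  have hm2 : 0 < m ^ 2 := by positivity
  have hm4 : 0 < m ^ 4 := by positivity
  have hk4 : k ^ 4 * e ^ 8 ≤ 97 ^ 4 := by
    have : (k * e ^ 2) ^ 4 ≤ 97 ^ 4 := pow_le_pow_left₀ (by positivity) hk2 4
    calc k ^ 4 * e ^ 8 = (k * e ^ 2) ^ 4 := by ring
      _ ≤ _ := this
  have h5 : (m * (2 * b)) ^ 2 ≤ (e * m ^ 2 / 8) ^ 2 := by
    have e1 : (m * (2 * b)) ^ 2 = 4 * m ^ 2 * b ^ 2 := by ring
    have e2 : (e * m ^ 2 / 8) ^ 2 = e ^ 2 * m ^ 4 / 64 := by ring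
    have e3 : 4 * m ^ 2 * (k ^ 2 * (3 * (k ^ 2 * N / m ^ 2))) = 12 * (k ^ 4 * N) := by
      field_simp
      ring
    have h6 : 4 * m ^ 2 * b ^ 2 ≤ 12 * (k ^ 4 * N) := by
      rw [← e3]
      exact mul_le_mul_of_nonneg_left hb (by positivity)
    have h7 : k ^ 4 * N ≤ k ^ 4 * (e ^ 15 * m ^ 4 / (2 * 10 ^ 17)) :=
      mul_le_mul_of_nonneg_left hN.le (by positivity)
    have e4 : k ^ 4 * (e ^ 15 * m ^ 4 / (2 * 10 ^ 17)) =
        (k ^ 4 * e ^ 8) * (e ^ 7 * m ^ 4) / (2 * 10 ^ 17) := by ring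
    have h8 : (k ^ 4 * e ^ 8) * (e ^ 7 * m ^ 4) ≤ 97 ^ 4 * (e ^ 7 * m ^ 4) :=
      mul_le_mul_of_nonneg_right hk4 (by positivity)
    have h9 : e ^ 7 * m ^ 4 ≤ e ^ 2 * m ^ 4 := by
      apply mul_le_mul_of_nonneg_right _ hm4.le
      have : e ^ 7 = e ^ 5 * e ^ 2 := by ring
      rw [this]
      have h10 : e ^ 5 ≤ 1 := pow_le_one₀ he0.le he1.le
      have h11 : 0 < e ^ 2 := by positivity
      calc e ^ 5 * e ^ 2 ≤ 1 * e ^ 2 := mul_le_mul_of_nonneg_right h10 h11.le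
        _ = e ^ 2 := one_mul _
    have h12 : 0 < e ^ 2 * m ^ 4 := by positivity
    rw [e1, e2]
    rw [e4] at h7
    have h13 : 12 * (k ^ 4 * N) ≤ 12 * ((k ^ 4 * e ^ 8) * (e ^ 7 * m ^ 4) / (2 * 10 ^ 17)) := by
      linarith
    have h14 : (k ^ 4 * e ^ 8) * (e ^ 7 * m ^ 4) ≤ 97 ^ 4 * (e ^ 2 * m ^ 4) :=
      h8.trans (mul_le_mul_of_nonneg_left h9 (by norm_num))
    have h15 : 12 * ((k ^ 4 * e ^ 8) * (e ^ 7 * m ^ 4) / (2 * 10 ^ 17)) ≤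
        12 * (97 ^ 4 * (e ^ 2 * m ^ 4) / (2 * 10 ^ 17)) := by
      apply mul_le_mul_of_nonneg_left _ (by norm_num)
      apply div_le_div_of_nonneg_right h14 (by norm_num)
    have h16 : 12 * (97 ^ 4 * (e ^ 2 * m ^ 4) / (2 * 10 ^ 17)) ≤ e ^ 2 * m ^ 4 / 64 := by
      have e5 : (12 : ℝ) * (97 ^ 4 * (e ^ 2 * m ^ 4) / (2 * 10 ^ 17)) =
          (12 * 97 ^ 4 / (2 * 10 ^ 17)) * (e ^ 2 * m ^ 4) := by ring
      have e6 : e ^ 2 * m ^ 4 / 64 = (1 / 64) * (e ^ 2 * m ^ 4) := by ring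
      rw [e5, e6]
      apply mul_le_mul_of_nonneg_right (by norm_num) h12.le
    linarith
  exact le_of_sq_le_sq h5 (by positivity)

/-- Numerical core: the error terms are small when there are few copies. -/
theorem numeric (e m N k g x b z : ℝ) (he0 : 0 < e) (he1 : e < 1) (hm : 0 < m) (hN0 : 0 ≤ N)
    (hk0 : 0 < k) (hk1 : 96 ≤ k * e ^ 2) (hk2 : k * e ^ 2 ≤ 97)
    (hN : N < e ^ 15 * m ^ 4 / (2 * 10 ^ 17))
    (hn : 5 * 10 ^ 7 ≤ e ^ 7 * m)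
    (hg0 : 0 < g) (hg1 : e * m / (80 * k ^ 3) ≤ g) (hg2 : k ^ 3 * g ≤ e * m / 40)
    (hx0 : 0 ≤ x) (hb0 : 0 ≤ b) (hz0 : 0 ≤ z)
    (hx : x ^ 2 ≤ m * (2 * (3 * (m ^ 3 / (k + 1)))))
    (hb : b ^ 2 ≤ k ^ 2 * (3 * (k ^ 2 * N / m ^ 2)))
    (hz : z * (k * g ^ 2) ≤ 3 * (k * N / m)) :
    m * (2 * b) + m * (5 * (k ^ 3 * g)) + (x + m) + m * z < e * m ^ 2 := by
  have hm2 : 0 < m ^ 2 := by positivity
  have hm4 : 0 < m ^ 4 := by positivity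
  have h1 : m * (5 * (k ^ 3 * g)) ≤ e * m ^ 2 / 8 := by
    have : m * (5 * (k ^ 3 * g)) ≤ m * (5 * (e * m / 40)) := by
      apply mul_le_mul_of_nonneg_left _ hm.le
      linarith
    calc _ ≤ m * (5 * (e * m / 40)) := this
      _ = e * m ^ 2 / 8 := by ring
  have h2 : x ≤ e * m ^ 2 / 4 := by
    have hk3 : 0 < k + 1 := by linarith
    have e1 : m * (2 * (3 * (m ^ 3 / (k + 1)))) = 6 * m ^ 4 / (k + 1) := by
      field_simp
      ring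
    have h3 : 6 * m ^ 4 / (k + 1) ≤ e ^ 2 * m ^ 4 / 16 := by
      rw [div_le_div_iff₀ hk3 (by norm_num)]
      have h5 : 96 ≤ (k + 1) * e ^ 2 := by
        have : 0 < e ^ 2 := by positivity
        linarith
      calc 6 * m ^ 4 * 16 = 96 * m ^ 4 := by ring
        _ ≤ ((k + 1) * e ^ 2) * m ^ 4 := mul_le_mul_of_nonneg_right h5 hm4.le
        _ = _ := by ring
    have h4 : x ^ 2 ≤ (e * m ^ 2 / 4) ^ 2 := by
      have e2 : (e * m ^ 2 / 4) ^ 2 = e ^ 2 * m ^ 4 / 16 := by ring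
      rw [e2]
      rw [e1] at hx
      linarith
    exact le_of_sq_le_sq h4 (by positivity)
  have h3 : m ≤ e * m ^ 2 / 8 := by
    have h4 : e ^ 7 ≤ e := by
      have : e ^ 6 ≤ 1 := pow_le_one₀ he0.le he1.le
      calc e ^ 7 = e ^ 6 * e := by ring
        _ ≤ 1 * e := mul_le_mul_of_nonneg_right this he0.le
        _ = e := one_mul e
    have h5 : 5 * 10 ^ 7 ≤ e * m := hn.trans (mul_le_mul_of_nonneg_right h4 hm.le)
    have h6 : 8 * m ≤ (e * m) * m := by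
      apply mul_le_mul_of_nonneg_right _ hm.le
      norm_num at h5
      linarith
    calc m = 8 * m / 8 := by ring
      _ ≤ (e * m) * m / 8 := by linarith
      _ = _ := by ring
  have h4 := num_cols e m N k b he0 he1 hm hk0 hk2 hN hb0 hb
  have h5 := num_rows e m N k g z he0 hm hN0 hk0 hk2 hN hg0 hg1 hz0 hz
  have hem : 0 < e * m ^ 2 := by positivity
  linarith

theorem free_of_NN_zero (A : Fin n → Fin n → Bool) (h : NN A = 0) :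
    ∀ r1 r2 c1 c2, r1 < r2 → c1 < c2 →
      ¬ (A r1 c1 = true ∧ A r1 c2 = true ∧ A r2 c1 = true ∧ A r2 c2 = false) := by
  rintro r1 r2 c1 c2 hr hc ⟨h1, h2, h3, h4⟩
  have h5 : M A r1 r2 = 0 := by
    unfold NN at h
    have := Finset.sum_eq_zero_iff.1 h r1 (Finset.mem_univ _)
    exact Finset.sum_eq_zero_iff.1 this r2 (Finset.mem_univ _)
  unfold M at h5
  rw [Finset.card_eq_zero, Finset.filter_eq_empty_iff] at h5
  exact h5 (x := (c1, c2)) (Finset.mem_univ _) ⟨hr, hc, h1, h2, h3, h4⟩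

theorem exists_param (ε : ℝ) (n k : ℝ) (h0 : 0 < ε) (hk0 : 0 < k) (hk2 : k * ε ^ 2 ≤ 97)
    (hnR : 0 < n) (hsize : 5 * 10 ^ 7 ≤ ε ^ 7 * n) :
    ∃ g : ℕ, 1 ≤ g ∧ k ^ 3 * (g : ℝ) ≤ ε * n / 40 ∧ ε * n / (80 * k ^ 3) ≤ (g : ℝ) := by
  set y : ℝ := ε * n / (40 * k ^ 3) with hy
  have he2 : 0 < ε ^ 2 := by positivity
  have hk3 : k ^ 3 * ε ^ 6 ≤ 97 ^ 3 := by
    have : (k * ε ^ 2) ^ 3 ≤ 97 ^ 3 := pow_le_pow_left₀ (by positivity) hk2 3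
    calc k ^ 3 * ε ^ 6 = (k * ε ^ 2) ^ 3 := by ring
      _ ≤ _ := this
  have hy1 : 1 ≤ y := by
    rw [hy, le_div_iff₀ (by positivity), one_mul]
    have he6 : 0 < ε ^ 6 := by positivity
    have h2 : 40 * k ^ 3 * ε ^ 6 ≤ (ε * n) * ε ^ 6 := by
      calc 40 * k ^ 3 * ε ^ 6 = 40 * (k ^ 3 * ε ^ 6) := by ring
        _ ≤ 40 * 97 ^ 3 := by linarith
        _ ≤ 5 * 10 ^ 7 := by norm_num
        _ ≤ ε ^ 7 * n := hsize
        _ = (ε * n) * ε ^ 6 := by ring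
    exact le_of_mul_le_mul_right h2 he6
  refine ⟨⌊y⌋₊, Nat.le_floor (by simpa using hy1), ?_, ?_⟩
  · have hgle : ((⌊y⌋₊ : ℕ) : ℝ) ≤ y := Nat.floor_le (by linarith)
    have hK3 : 0 < k ^ 3 := by positivity
    have e1 : ε * n / 40 = k ^ 3 * y := by
      rw [hy]
      field_simp
    rw [e1]
    exact mul_le_mul_of_nonneg_left hgle hK3.le
  · have hglt : y < ((⌊y⌋₊ : ℕ) : ℝ) + 1 := Nat.lt_floor_add_one y
    have hg1R : (1 : ℝ) ≤ ((⌊y⌋₊ : ℕ) : ℝ) := by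
      exact_mod_cast Nat.le_floor (by simpa using hy1)
    have e1 : ε * n / (80 * k ^ 3) = y / 2 := by
      rw [hy]
      field_simp
      ring
    rw [e1]
    linarith

theorem bound_x (A : Fin n → Fin n → Bool) (s : Fin K → Fin n) (w0 : Fin n → ℕ) (C : ℝ)
    (hw0 : ∀ r, w0 r * (w0 r - 1) ≤ 2 * typeA A s r)
    (hs1 : ((∑ r, typeA A s r : ℕ) : ℝ) ≤ C) :
    (∑ r, ((w0 r - 1 : ℕ) : ℝ)) ^ 2 ≤ (n : ℝ) * (2 * C) := by
  have h2 : (∑ r, ((w0 r - 1 : ℕ) : ℝ)) ^ 2 ≤ (n : ℝ) * ∑ r, (((w0 r - 1 : ℕ) : ℝ)) ^ 2 := by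
    have := sq_sum_le_card_mul_sum_sq (s := (univ : Finset (Fin n)))
      (f := fun r => ((w0 r - 1 : ℕ) : ℝ))
    simpa using this
  have h3 : ∑ r, (((w0 r - 1 : ℕ) : ℝ)) ^ 2 ≤ 2 * ((∑ r, typeA A s r : ℕ) : ℝ) := by
    push_cast
    rw [Finset.mul_sum]
    apply Finset.sum_le_sum
    intro r _
    have h4 : (w0 r - 1) * (w0 r - 1) ≤ 2 * typeA A s r := by
      refine le_trans ?_ (hw0 r)
      exact Nat.mul_le_mul_right _ (Nat.sub_le _ _)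
    have h5 : (((w0 r - 1 : ℕ) : ℝ)) * ((w0 r - 1 : ℕ) : ℝ) ≤ 2 * (typeA A s r : ℝ) := by
      exact_mod_cast h4
    rw [sq]
    exact h5
  have hn0 : (0 : ℝ) ≤ n := Nat.cast_nonneg _
  calc _ ≤ (n : ℝ) * ∑ r, (((w0 r - 1 : ℕ) : ℝ)) ^ 2 := h2
    _ ≤ (n : ℝ) * (2 * ((∑ r, typeA A s r : ℕ) : ℝ)) := mul_le_mul_of_nonneg_left h3 hn0
    _ ≤ _ := by
      apply mul_le_mul_of_nonneg_left _ hn0
      linarith

theorem bound_b (A : Fin n → Fin n → Bool) (s : Fin K → Fin n) (σ : Fin K → Fin K → ℕ) (C : ℝ)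
    (hσ : ∀ i j, σ i j * σ i j ≤ M A (s i) (s j))
    (hs3 : ((∑ i, ∑ j, M A (s i) (s j) : ℕ) : ℝ) ≤ C) :
    (∑ p : Fin K × Fin K, (σ p.1 p.2 : ℝ)) ^ 2 ≤ (K : ℝ) ^ 2 * C := by
  have h2 : (∑ p : Fin K × Fin K, (σ p.1 p.2 : ℝ)) ^ 2 ≤
      (K : ℝ) ^ 2 * ∑ p : Fin K × Fin K, ((σ p.1 p.2 : ℝ)) ^ 2 := by
    have := sq_sum_le_card_mul_sum_sq (s := (univ : Finset (Fin K × Fin K)))
      (f := fun p => (σ p.1 p.2 : ℝ))
    have e1 : (((univ : Finset (Fin K × Fin K)).card : ℕ) : ℝ) = (K : ℝ) ^ 2 := by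
      simp [Finset.card_univ, sq]
    rw [e1] at this
    simpa using this
  have h3 : ∑ p : Fin K × Fin K, ((σ p.1 p.2 : ℝ)) ^ 2 ≤
      ((∑ i, ∑ j, M A (s i) (s j) : ℕ) : ℝ) := by
    push_cast
    rw [Fintype.sum_prod_type]
    apply Finset.sum_le_sum
    intro i _
    apply Finset.sum_le_sum
    intro j _
    have := hσ i j
    have h4 : ((σ i j : ℝ)) * (σ i j : ℝ) ≤ (M A (s i) (s j) : ℝ) := by
      exact_mod_cast this
    rw [sq]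
    exact h4
  calc _ ≤ (K : ℝ) ^ 2 * ∑ p : Fin K × Fin K, ((σ p.1 p.2 : ℝ)) ^ 2 := h2
    _ ≤ (K : ℝ) ^ 2 * ((∑ i, ∑ j, M A (s i) (s j) : ℕ) : ℝ) :=
        mul_le_mul_of_nonneg_left h3 (by positivity)
    _ ≤ _ := mul_le_mul_of_nonneg_left hs3 (by positivity)

theorem bound_z (A : Fin n → Fin n → Bool) (s : Fin K → Fin n) (g : ℕ) (C : ℝ)
    (hs2 : ((∑ r, Vr A s r : ℕ) : ℝ) ≤ C) :
    ((univ.filter (fun r => g * (K * g) < Vr A s r)).card : ℝ) * ((K : ℝ) * (g : ℝ) ^ 2) ≤ C := by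
  have h2 : (univ.filter (fun r => g * (K * g) < Vr A s r)).card * (g * (K * g)) ≤
      ∑ r, Vr A s r := by
    rw [← smul_eq_mul]
    calc _ ≤ ∑ r ∈ univ.filter (fun r => g * (K * g) < Vr A s r), Vr A s r := by
          apply Finset.card_nsmul_le_sum
          intro r hr
          simp only [mem_filter, mem_univ, true_and] at hr
          exact hr.le
      _ ≤ _ := Finset.sum_le_sum_of_subset (Finset.filter_subset _ _)
  have h3 : ((univ.filter (fun r => g * (K * g) < Vr A s r)).card : ℝ) *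
      ((g : ℝ) * ((K : ℝ) * (g : ℝ))) ≤ ((∑ r, Vr A s r : ℕ) : ℝ) := by
    exact_mod_cast h2
  have e1 : ((univ.filter (fun r => g * (K * g) < Vr A s r)).card : ℝ) * ((K : ℝ) * (g : ℝ) ^ 2) =
      ((univ.filter (fun r => g * (K * g) < Vr A s r)).card : ℝ) *
      ((g : ℝ) * ((K : ℝ) * (g : ℝ))) := by ring
  rw [e1]
  exact h3.trans hs2

theorem params_arith (k g : ℝ) (hk : 1 ≤ k) (hg : 0 ≤ g) :
    k * k * (k * g + k * g) + k * ((k + 1) * g) + k * (k * g) ≤ 5 * (k ^ 3 * g) := by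
  have h3 : k ^ 2 ≤ k ^ 3 := by nlinarith [sq_nonneg k]
  have h4 : k ≤ k ^ 3 := by nlinarith [sq_nonneg k]
  have h5 : k ^ 2 * g ≤ k ^ 3 * g := mul_le_mul_of_nonneg_right h3 hg
  have h6 : k * g ≤ k ^ 3 * g := mul_le_mul_of_nonneg_right h4 hg
  have e : k * k * (k * g + k * g) + k * ((k + 1) * g) + k * (k * g) =
      2 * (k ^ 3 * g) + 2 * (k ^ 2 * g) + k * g := by ring
  rw [e]
  linarith

theorem ham_bound (A B : Fin n → Fin n → Bool) (s : Fin K → Fin n) (g : ℕ) (w0 : Fin n → ℕ)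
    (σ : Fin K → Fin K → ℕ) (hKpos : 1 ≤ K)
    (hham : (univ.filter (fun e' : Fin n × Fin n => A e'.1 e'.2 ≠ B e'.1 e'.2)).card ≤
        n * (∑ i, ∑ j, 2 * σ i j + K * K * (K * g + K * g) + K * ((K + 1) * g) + K * (K * g)) +
          ∑ r, w0 r + n * (univ.filter (fun r => g * (K * g) < Vr A s r)).card) :
    ((univ.filter (fun e : Fin n × Fin n => A e.1 e.2 ≠ B e.1 e.2)).card : ℝ) ≤
      (n : ℝ) * (2 * ∑ p : Fin K × Fin K, (σ p.1 p.2 : ℝ)) +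
        (n : ℝ) * (5 * ((K : ℝ) ^ 3 * (g : ℝ))) + (∑ r, ((w0 r - 1 : ℕ) : ℝ) + (n : ℝ)) +
        (n : ℝ) * ((univ.filter (fun r => g * (K * g) < Vr A s r)).card : ℝ) := by
  have hn0 : (0 : ℝ) ≤ n := Nat.cast_nonneg _
  have h2 : ((univ.filter (fun e : Fin n × Fin n => A e.1 e.2 ≠ B e.1 e.2)).card : ℝ) ≤
      (((n * (∑ i, ∑ j, 2 * σ i j + K * K * (K * g + K * g) + K * ((K + 1) * g) + K * (K * g)) +
        ∑ r, w0 r + n * (univ.filter (fun r => g * (K * g) < Vr A s r)).card : ℕ)) : ℝ) := by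
    exact_mod_cast hham
  refine h2.trans ?_
  push_cast
  have e1 : ∑ i, ∑ j, 2 * (σ i j : ℝ) = 2 * ∑ p : Fin K × Fin K, (σ p.1 p.2 : ℝ) := by
    rw [Fintype.sum_prod_type, Finset.mul_sum]
    apply Finset.sum_congr rfl
    intro i _
    rw [Finset.mul_sum]
  have e2 : ∑ r, (w0 r : ℝ) ≤ ∑ r, ((w0 r - 1 : ℕ) : ℝ) + (n : ℝ) := by
    have : ∑ r, (w0 r : ℝ) ≤ ∑ r, (((w0 r - 1 : ℕ) : ℝ) + 1) := by
      apply Finset.sum_le_sum
      intro r _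
      have h3 : w0 r ≤ (w0 r - 1) + 1 := by omega
      exact_mod_cast h3
    refine this.trans (le_of_eq ?_)
    rw [Finset.sum_add_distrib]
    simp
  have hK1R : (1 : ℝ) ≤ K := by exact_mod_cast hKpos
  have hgp : (0 : ℝ) ≤ g := Nat.cast_nonneg _
  have e3 := params_arith (K : ℝ) (g : ℝ) hK1R hgp
  rw [e1]
  have h7 : (n : ℝ) * (2 * ∑ p : Fin K × Fin K, (σ p.1 p.2 : ℝ) +
      (K : ℝ) * (K : ℝ) * ((K : ℝ) * (g : ℝ) + (K : ℝ) * (g : ℝ)) +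
      (K : ℝ) * (((K : ℝ) + 1) * (g : ℝ)) + (K : ℝ) * ((K : ℝ) * (g : ℝ))) ≤
      (n : ℝ) * (2 * ∑ p : Fin K × Fin K, (σ p.1 p.2 : ℝ) + 5 * ((K : ℝ) ^ 3 * (g : ℝ))) := by
    apply mul_le_mul_of_nonneg_left _ hn0
    linarith
  have e4 : (n : ℝ) * (2 * ∑ p : Fin K × Fin K, (σ p.1 p.2 : ℝ) + 5 * ((K : ℝ) ^ 3 * (g : ℝ))) =
      (n : ℝ) * (2 * ∑ p : Fin K × Fin K, (σ p.1 p.2 : ℝ)) +
        (n : ℝ) * (5 * ((K : ℝ) ^ 3 * (g : ℝ))) := by ring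
  linarith

/-- Polynomial removal for large matrices. -/
theorem main_large (A : Fin n → Fin n → Bool) (ε : ℝ) (h0 : 0 < ε) (h1 : ε < 1)
    (hsize : 5 * 10 ^ 7 ≤ ε ^ 7 * (n : ℝ))
    (hfar : ∀ B : Fin n → Fin n → Bool,
      (∀ r1 r2 c1 c2, r1 < r2 → c1 < c2 →
        ¬ (B r1 c1 = true ∧ B r1 c2 = true ∧ B r2 c1 = true ∧ B r2 c2 = false)) →
      ε * (n : ℝ) ^ 2 ≤ ((univ.filter (fun e : Fin n × Fin n => A e.1 e.2 ≠ B e.1 e.2)).card : ℝ)) :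
    ε ^ 15 * (n : ℝ) ^ 4 / (2 * 10 ^ 17) ≤ (NN A : ℝ) := by
  by_contra hlt
  have hlt' : (NN A : ℝ) < ε ^ 15 * (n : ℝ) ^ 4 / (2 * 10 ^ 17) := not_le.1 hlt
  have hnR : (0 : ℝ) < n := by
    by_contra hn
    have h2 : (n : ℝ) ≤ 0 := not_lt.1 hn
    have h3 : ε ^ 7 * (n : ℝ) ≤ 0 := mul_nonpos_of_nonneg_of_nonpos (by positivity) h2
    norm_num at hsize
    linarith
  have hn : 1 ≤ n := by exact_mod_cast hnR
  by_cases hN : NN A = 0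
  · have hfree := free_of_NN_zero A hN
    have h3 := hfar A hfree
    have h4 : (univ.filter (fun e : Fin n × Fin n => A e.1 e.2 ≠ A e.1 e.2)) = ∅ := by
      apply Finset.filter_eq_empty_iff.2
      intro e _ h
      exact h rfl
    rw [h4] at h3
    simp only [Finset.card_empty, Nat.cast_zero] at h3
    have : 0 < ε * (n : ℝ) ^ 2 := by positivity
    linarith
  have hN1 : 1 ≤ NN A := Nat.one_le_iff_ne_zero.2 hN
  set K : ℕ := ⌈96 / ε ^ 2⌉₊ with hK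
  have he2 : 0 < ε ^ 2 := by positivity
  have he21 : ε ^ 2 ≤ 1 := by nlinarith
  have hK1 : 96 / ε ^ 2 ≤ (K : ℝ) := Nat.le_ceil _
  have hK2 : (K : ℝ) < 96 / ε ^ 2 + 1 := Nat.ceil_lt_add_one (by positivity)
  have hk1 : 96 ≤ (K : ℝ) * ε ^ 2 := by
    rwa [div_le_iff₀ he2] at hK1
  have hk2 : (K : ℝ) * ε ^ 2 ≤ 97 := by
    have : (K : ℝ) * ε ^ 2 < (96 / ε ^ 2 + 1) * ε ^ 2 := mul_lt_mul_of_pos_right hK2 he2
    have e1 : (96 / ε ^ 2 + 1) * ε ^ 2 = 96 + ε ^ 2 := by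
      field_simp
    linarith
  have hKR : (0 : ℝ) < K := by
    by_contra h
    have h' : (K : ℝ) ≤ 0 := not_lt.1 h
    have : (K : ℝ) * ε ^ 2 ≤ 0 := mul_nonpos_of_nonpos_of_nonneg h' he2.le
    linarith
  have hKpos : 1 ≤ K := by exact_mod_cast hKR
  obtain ⟨g, hg1, hgup, hglo⟩ := exists_param ε (n : ℝ) (K : ℝ) h0 hKR hk2 hnR hsize
  have hg1R : (1 : ℝ) ≤ g := by exact_mod_cast hg1
  obtain ⟨s, hs1, hs2, hs3⟩ := choose_sample (K := K) A hKpos hn hN1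
  obtain ⟨B, w0, σ, hB, hw0, hσ, hham⟩ := build A s g (K * g) (K * g + K * g) hg1 hKpos le_rfl
  have hhamR := hfar B hB
  have hx2 := bound_x A s w0 _ hw0 hs1
  have hb2 := bound_b A s σ _ hσ hs3
  have hz2 := bound_z A s g _ hs2
  have hfinal := numeric ε (n : ℝ) (NN A : ℝ) (K : ℝ) (g : ℝ) _ _ _ h0 h1 hnR (Nat.cast_nonneg _) hKR
    hk1 hk2 hlt' hsize (by linarith) hglo hgup (Finset.sum_nonneg fun _ _ => Nat.cast_nonneg _)
    (Finset.sum_nonneg fun _ _ => Nat.cast_nonneg _) (Nat.cast_nonneg _) hx2 hb2 hz2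
  have hhamle := ham_bound A B s g w0 σ hKpos hham
  linarith

/-- Polynomial removal for the pattern `[[1,1],[1,0]]`, for all sizes. -/
theorem main (A : Fin n → Fin n → Bool) (ε : ℝ) (h0 : 0 < ε) (h1 : ε < 1)
    (hfar : ∀ B : Fin n → Fin n → Bool,
      (∀ r1 r2 c1 c2, r1 < r2 → c1 < c2 →
        ¬ (B r1 c1 = true ∧ B r1 c2 = true ∧ B r2 c1 = true ∧ B r2 c2 = false)) →
      ε * (n : ℝ) ^ 2 ≤ ((univ.filter (fun e : Fin n × Fin n => A e.1 e.2 ≠ B e.1 e.2)).card : ℝ)) :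
    ε ^ 28 * (n : ℝ) ^ 4 / 10 ^ 31 ≤ (NN A : ℝ) := by
  have hn0 : (0 : ℝ) ≤ n := Nat.cast_nonneg _
  by_cases hsize : 5 * 10 ^ 7 ≤ ε ^ 7 * (n : ℝ)
  · have h2 := main_large A ε h0 h1 hsize hfar
    refine le_trans ?_ h2
    have h3 : ε ^ 28 ≤ ε ^ 15 := pow_le_pow_of_le_one h0.le h1.le (by norm_num)
    have h4 : 0 ≤ ε ^ 15 * (n : ℝ) ^ 4 := by positivity
    have h5 : ε ^ 28 * (n : ℝ) ^ 4 ≤ ε ^ 15 * (n : ℝ) ^ 4 :=
      mul_le_mul_of_nonneg_right h3 (by positivity)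
    calc ε ^ 28 * (n : ℝ) ^ 4 / 10 ^ 31 ≤ ε ^ 15 * (n : ℝ) ^ 4 / 10 ^ 31 :=
          div_le_div_of_nonneg_right h5 (by norm_num)
      _ ≤ _ := div_le_div_of_nonneg_left h4 (by norm_num) (by norm_num)
  · have hsmall : ε ^ 7 * (n : ℝ) < 5 * 10 ^ 7 := not_le.1 hsize
    -- here a single copy suffices
    rcases Nat.eq_zero_or_pos (NN A) with hz | hp
    · have hfree := free_of_NN_zero A hz
      have h3 := hfar A hfree
      have h4 : (univ.filter (fun e : Fin n × Fin n => A e.1 e.2 ≠ A e.1 e.2)) = ∅ := by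
        apply Finset.filter_eq_empty_iff.2
        intro e _ h
        exact h rfl
      rw [h4] at h3
      simp only [Finset.card_empty, Nat.cast_zero] at h3
      have h5 : ε * (n : ℝ) ^ 2 = 0 := le_antisymm h3 (by positivity)
      have h6 : (n : ℝ) = 0 := by
        rcases mul_eq_zero.1 h5 with h | h
        · exact absurd h h0.ne'
        · exact pow_eq_zero_iff (by norm_num) |>.1 h
      rw [h6]
      have h7 : ε ^ 28 * (0 : ℝ) ^ 4 / 10 ^ 31 = 0 := by norm_num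
      rw [h7]
      exact Nat.cast_nonneg _
    · have h2 : (1 : ℝ) ≤ NN A := by exact_mod_cast hp
      have h3 : ε ^ 28 * (n : ℝ) ^ 4 = (ε ^ 7 * (n : ℝ)) ^ 4 := by ring
      have h4 : (ε ^ 7 * (n : ℝ)) ^ 4 ≤ (5 * 10 ^ 7) ^ 4 :=
        pow_le_pow_left₀ (by positivity) hsmall.le 4
      rw [h3]
      calc (ε ^ 7 * (n : ℝ)) ^ 4 / 10 ^ 31 ≤ (5 * 10 ^ 7) ^ 4 / 10 ^ 31 :=
            div_le_div_of_nonneg_right h4 (by norm_num)
        _ ≤ 1 := by norm_num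
        _ ≤ _ := h2

end P037Gamma
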