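import Vale.Agent.P037.Sample

open Finset Relation

namespace P037Gamma

section Abstract

variable {α : Type*} [LinearOrder α] {E : α → α → Prop}

theorem reach_le (hE : ∀ x y, E x y → x < y) {x y : α} (h : ReflTransGen E x y) : x ≤ y := by
  induction h with
  | refl => exact le_rfl
  | tail _ h2 ih => exact ih.trans (hE _ _ h2).le

theorem reach_head_conf (hE : ∀ x y, E x y → x < y)
    (hP : ∀ x y y', E x y → E x y' → y < y' → E y y') {x z : α} (h : ReflTransGen E x z) :
    ∀ y, E x y → y ≤ z → ReflTransGen E y z := by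
  induction h using ReflTransGen.head_induction_on with
  | refl =>
    intro y hy hz
    exact absurd ((hE _ _ hy).trans_le hz) (lt_irrefl _)
  | @head x a hxa haz ih =>
    intro y hy hyz
    rcases lt_trichotomy y a with h | h | h
    · exact ReflTransGen.head (hP x y a hy hxa h) haz
    · subst h
      exact haz
    · exact ih y (hP x a y hxa hy h) hyz

theorem reach_chain (hE : ∀ x y, E x y → x < y)
    (hP : ∀ x y y', E x y → E x y' → y < y' → E y y') {x y : α} (h : ReflTransGen E x y) :
    ∀ y', ReflTransGen E x y' → y ≤ y' → ReflTransGen E y y' := by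
  induction h using ReflTransGen.head_induction_on with
  | refl =>
    intro y' h _
    exact h
  | @head x a hxa hay ih =>
    intro y' hxy' hyy'
    have ha : a ≤ _ := reach_le hE hay
    exact ih y' (reach_head_conf hE hP hxy' a hxa (ha.trans hyy')) hyy'

end Abstract

/-- Number of ordered pairs in a finite linearly ordered set. -/
theorem card_lt_pairs {α : Type*} [LinearOrder α] [DecidableEq α] (Y : Finset α) :
    2 * ((Y ×ˢ Y).filter (fun p => p.1 < p.2)).card = Y.card * (Y.card - 1) := by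
  have h1 : Y.offDiag = (Y ×ˢ Y).filter (fun p => p.1 < p.2) ∪
      ((Y ×ˢ Y).filter (fun p => p.1 < p.2)).image Prod.swap := by
    ext ⟨a, b⟩
    simp only [Finset.mem_offDiag, Finset.mem_union, Finset.mem_filter, Finset.mem_product,
      Finset.mem_image, Prod.exists, Prod.swap_prod_mk, Prod.mk.injEq]
    constructor
    · rintro ⟨ha, hb, hne⟩
      rcases lt_or_gt_of_ne hne with h | h
      · exact Or.inl ⟨⟨ha, hb⟩, h⟩
      · exact Or.inr ⟨b, a, ⟨⟨hb, ha⟩, h⟩, rfl, rfl⟩
    · rintro (⟨⟨ha, hb⟩, h⟩ | ⟨c, d, ⟨⟨hc, hd⟩, h⟩, rfl, rfl⟩)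
      · exact ⟨ha, hb, h.ne⟩
      · exact ⟨hd, hc, h.ne'⟩
  have h2 : Disjoint ((Y ×ˢ Y).filter (fun p => p.1 < p.2))
      (((Y ×ˢ Y).filter (fun p => p.1 < p.2)).image Prod.swap) := by
    rw [Finset.disjoint_left]
    rintro ⟨a, b⟩ h h'
    simp only [Finset.mem_filter, Finset.mem_product, Finset.mem_image, Prod.exists,
      Prod.swap_prod_mk, Prod.mk.injEq] at h h'
    obtain ⟨c, d, ⟨_, hcd⟩, rfl, rfl⟩ := h'
    exact lt_asymm h.2 hcd
  have h3 := Finset.offDiag_card Y
  rw [h1, Finset.card_union_of_disjoint h2,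
    Finset.card_image_of_injective _ Prod.swap_injective] at h3
  rw [Nat.mul_sub, Nat.mul_one]
  omega

/-- Counting a filtered product through its first coordinate. -/
theorem card_filter_prod {α β : Type*} [DecidableEq α] [DecidableEq β] (Y : Finset α) (Z : Finset β)
    (Q : α → β → Prop) [∀ y z, Decidable (Q y z)] :
    ((Y ×ˢ Z).filter (fun p => Q p.1 p.2)).card = ∑ y ∈ Y, (Z.filter (fun z => Q y z)).card := by
  rw [Finset.card_filter, Finset.sum_product]
  apply Finset.sum_congr rfl
  intro y _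
  rw [Finset.card_filter]

open scoped Classical in
/-- In a forest order with few incomparable pairs a single root path covers almost everything. -/
theorem chain_select {n : ℕ} (S : Finset (Fin n)) (hS : S.Nonempty) (R : Fin n → Fin n → Prop)
    (htrans : ∀ x y z, R x y → R y z → R x z) :
    ∃ x0 ∈ S, (S.filter (fun b => ¬ R x0 b)).card * ((S.filter (fun b => ¬ R x0 b)).card - 1) ≤
      2 * ((S ×ˢ S).filter (fun p => p.1 < p.2 ∧ ¬ R p.1 p.2)).card := by
  obtain ⟨x0, hx0, hmax⟩ := Finset.exists_max_image S (fun x => (S.filter (fun b => R x b)).card) hS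
  refine ⟨x0, hx0, ?_⟩
  set T := S.filter (fun b => R x0 b) with hT
  set Y := S.filter (fun b => ¬ R x0 b) with hY
  set Inc := (S ×ˢ S).filter (fun p => p.1 < p.2 ∧ ¬ R p.1 p.2) with hInc
  have hYS : ∀ y ∈ Y, y ∈ S ∧ ¬ R x0 y := fun y hy => by simpa [hY] using hy
  have hTS : ∀ y ∈ T, y ∈ S ∧ R x0 y := fun y hy => by simpa [hT] using hy
  set Pc := (Y ×ˢ Y).filter (fun p => p.1 < p.2 ∧ R p.1 p.2) with hPc
  set Pi := (Y ×ˢ Y).filter (fun p => p.1 < p.2 ∧ ¬ R p.1 p.2) with hPi
  set D := (Y ×ˢ T).filter (fun p => ¬ R p.1 p.2) with hD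
  have hone : ∀ y ∈ Y, (Y.filter (fun z => y < z ∧ R y z)).card ≤
      (T.filter (fun t => ¬ R y t)).card := by
    intro y hy
    have h1 : (T.filter (fun t => R y t)).card + (T.filter (fun t => ¬ R y t)).card = T.card :=
      Finset.card_filter_add_card_filter_not _
    have hdisj : Disjoint (T.filter (fun t => R y t)) (Y.filter (fun z => y < z ∧ R y z)) := by
      rw [Finset.disjoint_left]
      intro a ha ha'
      simp only [Finset.mem_filter] at ha ha'
      exact (hYS a ha'.1).2 (hTS a ha.1).2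
    have h2 : T.filter (fun t => R y t) ∪ Y.filter (fun z => y < z ∧ R y z) ⊆
        S.filter (fun b => R y b) := by
      intro a ha
      simp only [Finset.mem_union, Finset.mem_filter] at ha ⊢
      rcases ha with ⟨ha, hb⟩ | ⟨ha, _, hb⟩
      · exact ⟨(hTS a ha).1, hb⟩
      · exact ⟨(hYS a ha).1, hb⟩
    have h3 := Finset.card_le_card h2
    rw [Finset.card_union_of_disjoint hdisj] at h3
    have h4 := hmax y (hYS y hy).1
    omega
  have hPcD : Pc.card ≤ D.card := by
    have e1 : Pc.card = ∑ y ∈ Y, (Y.filter (fun z => y < z ∧ R y z)).card :=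
      card_filter_prod Y Y (fun y z => y < z ∧ R y z)
    have e2 : D.card = ∑ y ∈ Y, (T.filter (fun z => ¬ R y z)).card :=
      card_filter_prod Y T (fun y z => ¬ R y z)
    rw [e1, e2]
    exact Finset.sum_le_sum hone
  set srt : Fin n × Fin n → Fin n × Fin n := fun p => (min p.1 p.2, max p.1 p.2) with hsrt
  have hne : ∀ y ∈ Y, ∀ t ∈ T, y ≠ t := by
    rintro y hy t ht rfl
    exact (hYS y hy).2 (hTS y ht).2
  have hinj : Set.InjOn srt (D : Set (Fin n × Fin n)) := by
    rintro ⟨y, t⟩ h ⟨y', t'⟩ h' heq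
    simp only [hD, Finset.coe_filter, Finset.mem_product, Set.mem_ofPred_eq] at h h'
    have hn1 := hne y h.1.1 t h.1.2
    have hn2 := hne y' h'.1.1 t' h'.1.2
    have hcross : y ≠ t' := hne y h.1.1 t' h'.1.2
    have hcross' : y' ≠ t := hne y' h'.1.1 t h.1.2
    simp only [hsrt, Prod.mk.injEq] at heq
    obtain ⟨h5, h6⟩ := heq
    rcases lt_or_gt_of_ne hn1 with h7 | h7 <;> rcases lt_or_gt_of_ne hn2 with h8 | h8
    · rw [min_eq_left h7.le, min_eq_left h8.le] at h5
      rw [max_eq_right h7.le, max_eq_right h8.le] at h6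
      rw [h5, h6]
    · rw [min_eq_left h7.le, min_eq_right h8.le] at h5
      exact absurd h5 hcross
    · rw [min_eq_right h7.le, min_eq_left h8.le] at h5
      exact absurd h5.symm hcross'
    · rw [max_eq_left h7.le, max_eq_left h8.le] at h6
      rw [min_eq_right h7.le, min_eq_right h8.le] at h5
      rw [h5, h6]
  have hDsub : D.image srt ⊆ Inc := by
    intro p hp
    obtain ⟨⟨y, t⟩, hq, rfl⟩ := Finset.mem_image.1 hp
    simp only [hD, Finset.mem_filter, Finset.mem_product] at hq
    have hy := hYS y hq.1.1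
    have ht := hTS t hq.1.2
    have hn1 := hne y hq.1.1 t hq.1.2
    simp only [hInc, hsrt, Finset.mem_filter, Finset.mem_product]
    rcases lt_or_gt_of_ne hn1 with h7 | h7
    · rw [min_eq_left h7.le, max_eq_right h7.le]
      exact ⟨⟨hy.1, ht.1⟩, h7, hq.2⟩
    · rw [min_eq_right h7.le, max_eq_left h7.le]
      refine ⟨⟨ht.1, hy.1⟩, h7, fun h => hy.2 (htrans _ _ _ ht.2 h)⟩
  have hPisub : Pi ⊆ Inc := by
    rintro ⟨a, b⟩ hp
    simp only [hPi, Finset.mem_filter, Finset.mem_product] at hp
    simp only [hInc, Finset.mem_filter, Finset.mem_product]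
    exact ⟨⟨(hYS a hp.1.1).1, (hYS b hp.1.2).1⟩, hp.2⟩
  have hdisj : Disjoint (D.image srt) Pi := by
    rw [Finset.disjoint_left]
    intro p hp hp'
    obtain ⟨⟨y, t⟩, hq, rfl⟩ := Finset.mem_image.1 hp
    simp only [hD, Finset.mem_filter, Finset.mem_product] at hq
    simp only [hPi, Finset.mem_filter, Finset.mem_product] at hp'
    have ht := hTS t hq.1.2
    have hn1 := hne y hq.1.1 t hq.1.2
    simp only [hsrt] at hp'
    rcases lt_or_gt_of_ne hn1 with h7 | h7
    · rw [max_eq_right h7.le] at hp'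
      exact (hYS t hp'.1.2).2 ht.2
    · rw [min_eq_right h7.le] at hp'
      exact (hYS t hp'.1.1).2 ht.2
  have hsum : D.card + Pi.card ≤ Inc.card := by
    have h1 := Finset.card_le_card (Finset.union_subset hDsub hPisub)
    rw [Finset.card_union_of_disjoint hdisj, Finset.card_image_of_injOn hinj] at h1
    exact h1
  have hsplit : ((Y ×ˢ Y).filter (fun p => p.1 < p.2)).card = Pc.card + Pi.card := by
    rw [← Finset.card_filter_add_card_filter_not (s := (Y ×ˢ Y).filter (fun p => p.1 < p.2))
      (fun p => R p.1 p.2), Finset.filter_filter, Finset.filter_filter]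
  have h2 := card_lt_pairs Y
  omega

end P037Gamma
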