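import Vale.Agent.P037G.Reach

open Finset Relation

namespace P037Gamma

section Row

variable {n K : ℕ} (C : Fin K → Finset (Fin n)) (τ : Fin K → Fin n) (Vp : Finset (Fin n))

/-- A directed edge of the graph on the surviving columns at time `r`. -/
def Edge (r x y : Fin n) : Prop :=
  x ∈ Vp ∧ y ∈ Vp ∧ x < y ∧ ∃ i, τ i ≤ r ∧ x ∈ C i ∧ y ∈ C i

/-- Reachability along edges at time `r`. -/
def Reach (r : Fin n) : Fin n → Fin n → Prop := ReflTransGen (Edge C τ Vp r)

variable {C τ Vp}

theorem edge_lt {r x y : Fin n} (h : Edge C τ Vp r x y) : x < y := h.2.2.1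

theorem edge_peo
    (hcl : ∀ i j, τ i ≤ τ j → ∀ x y, x < y → x ∈ C i → y ∈ C i → x ∈ C j → y ∈ C j)
    (r x y y' : Fin n) (h1 : Edge C τ Vp r x y) (h2 : Edge C τ Vp r x y') (hlt : y < y') :
    Edge C τ Vp r y y' := by
  obtain ⟨hx, hy, hxy, i, hi, hxi, hyi⟩ := h1
  obtain ⟨_, hy', hxy', j, hj, hxj, hyj⟩ := h2
  refine ⟨hy, hy', hlt, ?_⟩
  rcases le_total (τ i) (τ j) with h | h
  · exact ⟨j, hj, hcl i j h x y hxy hxi hyi hxj, hyj⟩
  · exact ⟨i, hi, hyi, hcl j i h x y' hxy' hxj hyj hxi⟩

theorem reach_mono {r r' x y : Fin n} (hr : r ≤ r') (h : Reach C τ Vp r x y) :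
    Reach C τ Vp r' x y := by
  refine ReflTransGen.mono ?_ _ _ h
  rintro a b ⟨h1, h2, h3, i, hi, h4, h5⟩
  exact ⟨h1, h2, h3, i, hi.trans hr, h4, h5⟩

theorem reach_le' {r x y : Fin n} (h : Reach C τ Vp r x y) : x ≤ y :=
  reach_le (fun _ _ h => edge_lt h) h

theorem reach_chain'
    (hcl : ∀ i j, τ i ≤ τ j → ∀ x y, x < y → x ∈ C i → y ∈ C i → x ∈ C j → y ∈ C j)
    {r x y y' : Fin n} (h : Reach C τ Vp r x y) (h' : Reach C τ Vp r x y') (hle : y ≤ y') :
    Reach C τ Vp r y y' :=
  reach_chain (fun _ _ h => edge_lt h) (edge_peo hcl r) h y' h' hle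

/-- The sampled sets that are ones of row `S` at or below the position `t`. -/
def ones (C : Fin K → Finset (Fin n)) (S : Finset (Fin n)) (i : Fin K) (t : Fin n) :
    Finset (Fin n) :=
  (C i).filter (fun z => z ≤ t ∧ z ∈ S)

/-- Inversions of the row `S` inside a sampled set. -/
def Inv (A' : Finset (Fin n)) (S : Finset (Fin n)) : ℕ :=
  ((A' ×ˢ A').filter (fun p => p.1 < p.2 ∧ p.1 ∈ S ∧ p.2 ∉ S)).card

theorem step {w g e : ℕ} (S : Finset (Fin n)) (hg : 1 ≤ g)
    (hcl : ∀ i j, τ i ≤ τ j → ∀ x y, x < y → x ∈ C i → y ∈ C i → x ∈ C j → y ∈ C j)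
    (i j : Fin K) (hij : τ i < τ j) (t : Fin n)
    (hw : w ≤ ((C i ∩ C j).filter (fun x => x < t)).card)
    (hinv : Inv (C i) S ≤ g * e) (c : ℕ) (hc : c ≤ (ones C S i t).card) :
    c - g ≤ (ones C S j t).card ∨ w - e ≤ (ones C S j t).card := by
  set A2 := (ones C S i t).filter (fun z => z ∉ C j) with hA2
  set A1 := (ones C S i t).filter (fun z => z ∈ C j) with hA1
  have hsplit : A1.card + A2.card = (ones C S i t).card :=
    Finset.card_filter_add_card_filter_not _
  by_cases hbig : g ≤ A2.card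
  · right
    set Oz := (C i ∩ C j).filter (fun x => x < t) with hOz
    have hsp2 : (Oz.filter (fun x => x ∈ S)).card + (Oz.filter (fun x => x ∉ S)).card = Oz.card :=
      Finset.card_filter_add_card_filter_not _
    have hz : (Oz.filter (fun x => x ∉ S)).card ≤ e := by
      have hsub : A2 ×ˢ (Oz.filter (fun x => x ∉ S)) ⊆
          ((C i) ×ˢ (C i)).filter (fun p => p.1 < p.2 ∧ p.1 ∈ S ∧ p.2 ∉ S) := by
        rintro ⟨z, x⟩ hp
        simp only [hA2, hOz, ones, Finset.mem_product, Finset.mem_filter, Finset.mem_inter] at hp ⊢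
        obtain ⟨⟨⟨hzi, hzt, hzS⟩, hzj⟩, ⟨⟨hxi, hxj⟩, hxt⟩, hxS⟩ := hp
        refine ⟨⟨hzi, hxi⟩, ?_, hzS, hxS⟩
        rcases lt_trichotomy z x with h | h | h
        · exact h
        · subst h
          exact absurd hxj hzj
        · exact absurd (hcl i j hij.le x z h hxi hzi hxj) hzj
      have h1 := Finset.card_le_card hsub
      rw [Finset.card_product] at h1
      have h2 : A2.card * (Oz.filter (fun x => x ∉ S)).card ≤ g * e := h1.trans hinv
      have h3 : g * (Oz.filter (fun x => x ∉ S)).card ≤ g * e :=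
        (Nat.mul_le_mul_right _ hbig).trans h2
      exact Nat.le_of_mul_le_mul_left h3 (by omega)
    have hsub : Oz.filter (fun x => x ∈ S) ⊆ ones C S j t := by
      intro x hx
      simp only [hOz, ones, Finset.mem_filter, Finset.mem_inter] at hx ⊢
      exact ⟨hx.1.1.2, hx.1.2.le, hx.2⟩
    have h4 := Finset.card_le_card hsub
    omega
  · left
    have hsub : A1 ⊆ ones C S j t := by
      intro x hx
      simp only [hA1, ones, Finset.mem_filter] at hx ⊢
      exact ⟨hx.2, hx.1.2⟩
    have h4 := Finset.card_le_card hsub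
    omega

open scoped Classical in
/-- Propagation of thick sets of ones along an increasing chain of sampled rows. -/
theorem propagate {w g e : ℕ} (S : Finset (Fin n)) (r y : Fin n) (hy : y ∉ S) (hg : 1 ≤ g)
    (hcl : ∀ i j, τ i ≤ τ j → ∀ x y, x < y → x ∈ C i → y ∈ C i → x ∈ C j → y ∈ C j)
    (hband : ∀ i j, τ i < τ j → ∀ t ∈ Vp, t ∈ C i → t ∈ C j →
      w ≤ ((C i ∩ C j).filter (fun x => x < t)).card)
    (hinv : ∀ i, τ i ≤ r → Inv (C i) S ≤ g * e) (hwe : e + K * g ≤ w) :
    ∀ (d : ℕ) (i : Fin K) (t : Fin n) (c : ℕ), (univ.filter (fun j => τ i < τ j)).card = d →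
      τ i ≤ r → t ∈ C i → t ∈ Vp → Reach C τ Vp r t y → (d + 1) * g ≤ c →
      c ≤ (ones C S i t).card →
      ∃ j, τ j ≤ r ∧ y ∈ C j ∧ g ≤ ((C j).filter (fun z => z < y ∧ z ∈ S)).card := by
  intro d
  induction d using Nat.strong_induction_on with
  | _ d ih =>
    intro i t c hd hir hti htV hreach hc hones
    set Tset := (C i).filter (fun t' => t' ∈ Vp ∧ Reach C τ Vp r t' y) with hTset
    have htT : t ∈ Tset := by
      simp only [hTset, Finset.mem_filter]
      exact ⟨hti, htV, hreach⟩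
    have hne : Tset.Nonempty := ⟨t, htT⟩
    set t' := Tset.max' hne with ht'
    have ht'T : t' ∈ Tset := Finset.max'_mem _ _
    have hmaxle : ∀ a ∈ Tset, a ≤ t' := fun a ha => Finset.le_max' _ _ ha
    have htle : t ≤ t' := hmaxle t htT
    simp only [hTset, Finset.mem_filter] at ht'T
    obtain ⟨ht'i, ht'V, ht'y⟩ := ht'T
    have hones' : c ≤ (ones C S i t').card := by
      refine hones.trans (Finset.card_le_card ?_)
      intro z hz
      simp only [ones, Finset.mem_filter] at hz ⊢
      exact ⟨hz.1, hz.2.1.trans htle, hz.2.2⟩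
    rcases ReflTransGen.cases_head ht'y with heq | ⟨a, hedge, hay⟩
    · -- the chain has reached y
      refine ⟨i, hir, heq ▸ ht'i, ?_⟩
      have hgc : g ≤ c := by nlinarith
      refine hgc.trans (hones'.trans (Finset.card_le_card ?_))
      intro z hz
      simp only [ones, Finset.mem_filter] at hz ⊢
      refine ⟨hz.1, ?_, hz.2.2⟩
      rw [heq] at hz
      refine lt_of_le_of_ne hz.2.1 ?_
      rintro rfl
      exact hy hz.2.2
    · obtain ⟨_, haV, hlt, j, hjr, hj1, hj2⟩ := hedge
      have hij : τ i < τ j := by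
        by_contra hnot
        have hle : τ j ≤ τ i := not_lt.1 hnot
        have hai : a ∈ C i := hcl j i hle t' a hlt hj1 hj2 ht'i
        have : a ≤ t' := hmaxle a (by
          simp only [hTset, Finset.mem_filter]
          exact ⟨hai, haV, hay⟩)
        exact absurd hlt (not_lt.2 this)
      -- later rows of j
      set dj := (univ.filter (fun j' => τ j < τ j')).card with hdj
      have hdlt : dj < d := by
        rw [← hd]
        apply Finset.card_lt_card
        refine ⟨?_, fun hsub => ?_⟩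
        · intro j' hj'
          simp only [Finset.mem_filter, Finset.mem_univ, true_and] at hj' ⊢
          exact hij.trans hj'
        · have : j ∈ univ.filter (fun j' => τ j < τ j') := hsub (by simp [hij])
          simp at this
      have hdK : d ≤ K := by
        rw [← hd]
        simpa using Finset.card_le_univ (univ.filter (fun j => τ i < τ j))
      have hbandt := hband i j hij t' ht'V ht'i hj1
      have hstep := step S hg hcl i j hij t' hbandt (hinv i hir) c hones'
      have hgoal : (dj + 1) * g ≤ (ones C S j t').card := by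
        rcases hstep with h | h
        · refine le_trans ?_ h
          have h1 : (dj + 1 + 1) * g ≤ (d + 1) * g := Nat.mul_le_mul_right _ (by omega)
          have h2 : (dj + 1 + 1) * g = (dj + 1) * g + g := by ring
          omega
        · refine le_trans ?_ h
          have h1 : (dj + 1) * g ≤ K * g := Nat.mul_le_mul_right _ (by omega)
          omega
      exact ih dj hdlt j t' _ rfl hjr hj1 ht'V (ReflTransGen.head ⟨ht'V, haV, hlt, j, hjr, hj1, hj2⟩ hay)
        le_rfl hgoal

/-- A set inside a sampled row has few zeros preceded by many ones. -/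
theorem zeros_bound {g e : ℕ} (S A' : Finset (Fin n)) (hg : 1 ≤ g) (hinv : Inv A' S ≤ g * e) :
    (A'.filter (fun y => y ∉ S ∧ g ≤ (A'.filter (fun z => z < y ∧ z ∈ S)).card)).card ≤ e := by
  set Z := A'.filter (fun y => y ∉ S ∧ g ≤ (A'.filter (fun z => z < y ∧ z ∈ S)).card) with hZ
  have h1 : g * Z.card ≤ ∑ y ∈ Z, (A'.filter (fun z => z < y ∧ z ∈ S)).card := by
    rw [Nat.mul_comm, ← smul_eq_mul]
    apply Finset.card_nsmul_le_sum
    intro y hy
    simp only [hZ, Finset.mem_filter] at hy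
    exact hy.2.2
  have h2 : ∑ y ∈ Z, (A'.filter (fun z => z < y ∧ z ∈ S)).card ≤ Inv A' S := by
    have e1 : ∑ y ∈ Z, (A'.filter (fun z => z < y ∧ z ∈ S)).card =
        ((Z ×ˢ A').filter (fun p => p.2 < p.1 ∧ p.2 ∈ S)).card :=
      (card_filter_prod Z A' (fun y z => z < y ∧ z ∈ S)).symm
    rw [e1]
    unfold Inv
    apply Finset.card_le_card_of_injOn Prod.swap
    · rintro ⟨y, z⟩ hp
      simp only [Finset.coe_filter, Finset.mem_product, Set.mem_ofPred_eq, hZ, Finset.mem_filter,
        Prod.swap_prod_mk] at hp ⊢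
      exact ⟨⟨hp.1.2, hp.1.1.1⟩, hp.2.1, hp.2.2, hp.1.1.2.1⟩
    · exact Prod.swap_injective.injOn
  have h3 := (h1.trans h2).trans hinv
  exact Nat.le_of_mul_le_mul_left h3 (by omega)

open scoped Classical in
/-- The heart of the matter: many ones below a threshold on a root path force few zeros above it. -/
theorem key_bound {w g e : ℕ} (S : Finset (Fin n)) (r x0 : Fin n) (h : ℕ) (hg : 1 ≤ g) (hK : 1 ≤ K)
    (hcl : ∀ i j, τ i ≤ τ j → ∀ x y, x < y → x ∈ C i → y ∈ C i → x ∈ C j → y ∈ C j)
    (hband : ∀ i j, τ i < τ j → ∀ t ∈ Vp, t ∈ C i → t ∈ C j →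
      w ≤ ((C i ∩ C j).filter (fun x => x < t)).card)
    (hinv : ∀ i, τ i ≤ r → Inv (C i) S ≤ g * e) (hwe : e + K * g ≤ w)
    (L M : Finset (Fin n))
    (hL : ∀ a ∈ L, a ∈ S ∧ a ∈ Vp ∧ Reach C τ Vp r x0 a ∧ (a : ℕ) < h)
    (hM : ∀ y ∈ M, y ∉ S ∧ Reach C τ Vp r x0 y ∧ h ≤ (y : ℕ))
    (hcard : K * ((K + 1) * g) ≤ L.card) : M.card ≤ K * e := by
  rcases M.eq_empty_or_nonempty with rfl | ⟨y0, hy0⟩
  · simp
  set c := (K + 1) * g with hc
  have hc1 : 1 ≤ c := by
    have : 1 * 1 ≤ (K + 1) * g := Nat.mul_le_mul (by omega) hg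
    simpa using this
  have hKpos : Nonempty (Fin K) := ⟨⟨0, hK⟩⟩
  have hreachle : ∀ a ∈ L, ∀ y ∈ M, Reach C τ Vp r a y ∧ a < y := by
    intro a ha y hy
    obtain ⟨_, _, hra, hah⟩ := hL a ha
    obtain ⟨_, hry, hhy⟩ := hM y hy
    have hlt : a < y := Fin.lt_def.2 (by omega)
    exact ⟨reach_chain' hcl hra hry hlt.le, hlt⟩
  have hcov : ∀ a ∈ L, ∃ i, τ i ≤ r ∧ a ∈ C i := by
    intro a ha
    obtain ⟨h1, h2⟩ := hreachle a ha y0 hy0
    rcases ReflTransGen.cases_head h1 with heq | ⟨b, hedge, _⟩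
    · exact absurd heq h2.ne
    · obtain ⟨_, _, _, i, hi, h3, _⟩ := hedge
      exact ⟨i, hi, h3⟩
  have hpig : ∃ i, τ i ≤ r ∧ c ≤ (L.filter (fun a => a ∈ C i)).card := by
    by_contra hno
    push Not at hno
    set F : Fin K → Finset (Fin n) := fun i => L.filter (fun a => τ i ≤ r ∧ a ∈ C i) with hF
    have hsub : L ⊆ univ.biUnion F := by
      intro a ha
      obtain ⟨i, hi1, hi2⟩ := hcov a ha
      simp only [hF, Finset.mem_biUnion, Finset.mem_univ, true_and, Finset.mem_filter]
      exact ⟨i, ha, hi1, hi2⟩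
    have h1 : L.card ≤ ∑ i, (F i).card := (Finset.card_le_card hsub).trans Finset.card_biUnion_le
    have h2 : ∑ i, (F i).card < ∑ _i : Fin K, c := by
      apply Finset.sum_lt_sum_of_nonempty Finset.univ_nonempty
      intro i _
      by_cases hi : τ i ≤ r
      · refine lt_of_le_of_lt (Finset.card_le_card ?_) (hno i hi)
        intro a ha
        simp only [hF, Finset.mem_filter] at ha ⊢
        exact ⟨ha.1, ha.2.2⟩
      · have : F i = ∅ := by
          apply Finset.filter_eq_empty_iff.2
          intro a _ h'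
          exact hi h'.1
        rw [this]
        simp only [Finset.card_empty]
        omega
    simp only [Finset.sum_const, Finset.card_univ, Fintype.card_fin, smul_eq_mul] at h2
    omega
  obtain ⟨i, hir, hi⟩ := hpig
  set L' := L.filter (fun a => a ∈ C i) with hL'
  have hL'ne : L'.Nonempty := by
    rw [← Finset.card_pos]
    omega
  set t := L'.max' hL'ne with ht
  have htL' : t ∈ L' := Finset.max'_mem _ _
  simp only [hL', Finset.mem_filter] at htL'
  obtain ⟨htL, hti⟩ := htL'
  have htV : t ∈ Vp := (hL t htL).2.1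
  have hones : c ≤ (ones C S i t).card := by
    refine hi.trans (Finset.card_le_card ?_)
    intro z hz
    have hzle : z ≤ t := Finset.le_max' _ _ hz
    simp only [hL', Finset.mem_filter] at hz
    simp only [ones, Finset.mem_filter]
    exact ⟨hz.2, hzle, (hL z hz.1).1⟩
  have hprop : ∀ y ∈ M, ∃ j, τ j ≤ r ∧ y ∈ C j ∧
      g ≤ ((C j).filter (fun z => z < y ∧ z ∈ S)).card := by
    intro y hy
    have hd : (univ.filter (fun j => τ i < τ j)).card ≤ K := by
      simpa using Finset.card_le_univ (univ.filter (fun j => τ i < τ j))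
    exact propagate S r y (hM y hy).1 hg hcl hband hinv hwe _ i t c rfl hir hti htV
      (hreachle t htL y hy).1 (Nat.mul_le_mul_right _ (by omega)) hones
  set Z : Fin K → Finset (Fin n) := fun j => if τ j ≤ r then
    (C j).filter (fun y => y ∉ S ∧ g ≤ ((C j).filter (fun z => z < y ∧ z ∈ S)).card) else ∅ with hZ
  have hsub : M ⊆ univ.biUnion Z := by
    intro y hy
    obtain ⟨j, hj1, hj2, hj3⟩ := hprop y hy
    simp only [hZ, Finset.mem_biUnion, Finset.mem_univ, true_and]
    refine ⟨j, ?_⟩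
    rw [if_pos hj1]
    simp only [Finset.mem_filter]
    exact ⟨hj2, (hM y hy).1, hj3⟩
  have hZcard : ∀ j, (Z j).card ≤ e := by
    intro j
    by_cases hj : τ j ≤ r
    · simp only [hZ]
      rw [if_pos hj]
      exact zeros_bound S (C j) hg (hinv j hj)
    · simp only [hZ]
      rw [if_neg hj]
      simp
  calc M.card ≤ ∑ j, (Z j).card := (Finset.card_le_card hsub).trans Finset.card_biUnion_le
    _ ≤ ∑ _j : Fin K, e := Finset.sum_le_sum fun j _ => hZcard j
    _ = K * e := by simp

open scoped Classical in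
/-- Every row with few inversions against the earlier sampled rows is close to a root path. -/
theorem row_fix {w g e : ℕ} (S : Finset (Fin n)) (r : Fin n) (hg : 1 ≤ g) (hK : 1 ≤ K)
    (hcl : ∀ i j, τ i ≤ τ j → ∀ x y, x < y → x ∈ C i → y ∈ C i → x ∈ C j → y ∈ C j)
    (hband : ∀ i j, τ i < τ j → ∀ t ∈ Vp, t ∈ C i → t ∈ C j →
      w ≤ ((C i ∩ C j).filter (fun x => x < t)).card)
    (hinv : ∀ i, τ i ≤ r → Inv (C i) S ≤ g * e) (hwe : e + K * g ≤ w) :
    ∃ (Q : Finset (Fin n)) (w0 : ℕ), (Q = ∅ ∨ ∃ q, ∀ y, y ∈ Q ↔ Reach C τ Vp r q y) ∧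
      w0 * (w0 - 1) ≤ 2 * (((S ∩ Vp) ×ˢ (S ∩ Vp)).filter
        (fun p => p.1 < p.2 ∧ ¬ Reach C τ Vp r p.1 p.2)).card ∧
      (S \ Q).card + (Q \ S).card ≤ (univ \ Vp).card + w0 + K * ((K + 1) * g) + K * e := by
  rcases (S ∩ Vp).eq_empty_or_nonempty with hemp | hne
  · refine ⟨∅, 0, Or.inl rfl, by simp, ?_⟩
    simp only [Finset.sdiff_empty, Finset.empty_sdiff, Finset.card_empty, add_zero]
    have : S ⊆ univ \ Vp := by
      intro z hz
      simp only [Finset.mem_sdiff, Finset.mem_univ, true_and]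
      intro hzV
      have : z ∈ S ∩ Vp := Finset.mem_inter.2 ⟨hz, hzV⟩
      rw [hemp] at this
      simp at this
    have h1 := Finset.card_le_card this
    omega
  obtain ⟨x0, hx0, hcount⟩ := chain_select (S ∩ Vp) hne (Reach C τ Vp r)
    (fun x y z h1 h2 => ReflTransGen.trans h1 h2)
  set Y := (S ∩ Vp).filter (fun b => ¬ Reach C τ Vp r x0 b) with hY
  set T := (S ∩ Vp).filter (fun b => Reach C τ Vp r x0 b) with hT
  set P := (univ : Finset (Fin n)).filter (fun b => Reach C τ Vp r x0 b) with hP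
  set c := (K + 1) * g with hc
  have hc1 : 1 ≤ K * c := by
    have : 1 * 1 ≤ K * ((K + 1) * g) := Nat.mul_le_mul hK (by
      have : 1 * 1 ≤ (K + 1) * g := Nat.mul_le_mul (by omega) hg
      simpa using this)
    simpa using this
  -- the part of the row outside the chain
  have hsplit : ∀ z ∈ S, z ∉ univ \ Vp → z ∈ Y ∨ z ∈ T := by
    intro z hz hz'
    simp only [Finset.mem_sdiff, Finset.mem_univ, true_and, not_not] at hz'
    by_cases hr : Reach C τ Vp r x0 z
    · right
      simp only [hT, Finset.mem_filter, Finset.mem_inter]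
      exact ⟨⟨hz, hz'⟩, hr⟩
    · left
      simp only [hY, Finset.mem_filter, Finset.mem_inter]
      exact ⟨⟨hz, hz'⟩, hr⟩
  by_cases hsmall : T.card < K * c
  · refine ⟨∅, Y.card, Or.inl rfl, hcount, ?_⟩
    simp only [Finset.sdiff_empty, Finset.empty_sdiff, Finset.card_empty, add_zero]
    have hsub : S ⊆ (univ \ Vp) ∪ (Y ∪ T) := by
      intro z hz
      by_cases hz' : z ∈ univ \ Vp
      · exact Finset.mem_union_left _ hz'
      · exact Finset.mem_union_right _ (Finset.mem_union.2 (hsplit z hz hz'))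
    have h1 := (Finset.card_le_card hsub).trans (Finset.card_union_le _ _)
    have h2 := Finset.card_union_le Y T
    omega
  -- find the threshold
  have hex : ∃ h : ℕ, K * c ≤ (T.filter (fun a : Fin n => (a : ℕ) < h)).card := by
    refine ⟨n, ?_⟩
    have : T.filter (fun a : Fin n => (a : ℕ) < n) = T := by
      apply Finset.filter_true_of_mem
      intro a _
      exact a.2
    rw [this]
    omega
  obtain ⟨h0, hh0spec, hh0min⟩ : ∃ h0 : ℕ, K * c ≤ (T.filter (fun a : Fin n => (a : ℕ) < h0)).card ∧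
      ∀ m, m < h0 → (T.filter (fun a : Fin n => (a : ℕ) < m)).card < K * c :=
    ⟨Nat.find hex, Nat.find_spec hex, fun m hm => not_le.1 (Nat.find_min hex hm)⟩
  have hh0pos : 0 < h0 := by
    rcases Nat.eq_zero_or_pos h0 with h | h
    · subst h
      simp only [Nat.not_lt_zero, Finset.filter_false, Finset.card_empty] at hh0spec
      omega
    · exact h
  have hLle : (T.filter (fun a : Fin n => (a : ℕ) < h0)).card ≤ K * c := by
    obtain ⟨h1, hh1⟩ : ∃ h1, h0 = h1 + 1 := ⟨h0 - 1, by omega⟩
    have hmin : (T.filter (fun a : Fin n => (a : ℕ) < h1)).card < K * c := hh0min h1 (by omega)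
    have hsub : T.filter (fun a : Fin n => (a : ℕ) < h0) ⊆ T.filter (fun a : Fin n => (a : ℕ) < h1) ∪
        T.filter (fun a : Fin n => (a : ℕ) = h1) := by
      intro a ha
      simp only [Finset.mem_filter, Finset.mem_union] at ha ⊢
      by_cases h' : (a : ℕ) < h1
      · exact Or.inl ⟨ha.1, h'⟩
      · exact Or.inr ⟨ha.1, by omega⟩
    have hone : (T.filter (fun a : Fin n => (a : ℕ) = h1)).card ≤ 1 := by
      apply Finset.card_le_one.2
      intro a ha b hb
      simp only [Finset.mem_filter] at ha hb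
      exact Fin.ext (ha.2.trans hb.2.symm)
    have h2 := (Finset.card_le_card hsub).trans (Finset.card_union_le _ _)
    omega
  set Qc := P.filter (fun y : Fin n => h0 ≤ (y : ℕ)) with hQc
  set Mh := P.filter (fun y : Fin n => h0 ≤ (y : ℕ) ∧ y ∉ S) with hMh
  have hMcard : Mh.card ≤ K * e := by
    apply key_bound S r x0 h0 hg hK hcl hband hinv hwe (T.filter (fun a : Fin n => (a : ℕ) < h0)) Mh
    · intro a ha
      simp only [hT, Finset.mem_filter, Finset.mem_inter] at ha
      exact ⟨ha.1.1.1, ha.1.1.2, ha.1.2, ha.2⟩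
    · intro y hy
      simp only [hMh, hP, Finset.mem_filter, Finset.mem_univ, true_and] at hy
      exact ⟨hy.2.2, hy.1, hy.2.1⟩
    · exact hh0spec
  have hvalid : Qc = ∅ ∨ ∃ q, ∀ y, y ∈ Qc ↔ Reach C τ Vp r q y := by
    rcases Qc.eq_empty_or_nonempty with h | hq
    · exact Or.inl h
    · right
      obtain ⟨q, hqmem, hqmin⟩ : ∃ q ∈ Qc, ∀ y ∈ Qc, q ≤ y :=
        ⟨Qc.min' hq, Finset.min'_mem _ _, fun y hy => Finset.min'_le _ _ hy⟩
      refine ⟨q, fun y => ?_⟩
      simp only [hQc, hP, Finset.mem_filter, Finset.mem_univ, true_and] at hqmem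
      constructor
      · intro hy
        have hle := hqmin y hy
        simp only [hQc, hP, Finset.mem_filter, Finset.mem_univ, true_and] at hy
        exact reach_chain' hcl hqmem.1 hy.1 hle
      · intro hy
        have hle : q ≤ y := reach_le' hy
        simp only [hQc, hP, Finset.mem_filter, Finset.mem_univ, true_and]
        refine ⟨ReflTransGen.trans hqmem.1 hy, ?_⟩
        have := Fin.le_def.1 hle
        omega
  refine ⟨Qc, Y.card, hvalid, hcount, ?_⟩
  have hsub1 : S \ Qc ⊆ (univ \ Vp) ∪ (Y ∪ T.filter (fun a : Fin n => (a : ℕ) < h0)) := by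
    intro z hz
    simp only [Finset.mem_sdiff] at hz
    by_cases hz' : z ∈ univ \ Vp
    · exact Finset.mem_union_left _ hz'
    · apply Finset.mem_union_right
      rcases hsplit z hz.1 hz' with h | h
      · exact Finset.mem_union_left _ h
      · apply Finset.mem_union_right
        simp only [Finset.mem_filter]
        refine ⟨h, ?_⟩
        by_contra hge
        apply hz.2
        simp only [hT, Finset.mem_filter] at h
        simp only [hQc, hP, Finset.mem_filter, Finset.mem_univ, true_and]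
        exact ⟨h.2, by omega⟩
  have hsub2 : Qc \ S ⊆ Mh := by
    intro z hz
    simp only [Finset.mem_sdiff, hQc, hMh, Finset.mem_filter] at hz ⊢
    exact ⟨hz.1.1, hz.1.2, hz.2⟩
  have h1 := (Finset.card_le_card hsub1).trans (Finset.card_union_le _ _)
  have h2 := Finset.card_union_le Y (T.filter (fun a : Fin n => (a : ℕ) < h0))
  have h3 := Finset.card_le_card hsub2
  omega

end Row

end P037Gamma
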