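import Vale.Agent.P037G.Main
import Vale.Agent.P037.Main

open Finset

namespace P037Sym

open scoped Classical

/-- Number of ordered copies of a pattern. -/
noncomputable def copies {k n : ℕ} (H : Fin k → Fin k → Bool) (A : Fin n → Fin n → Bool) : ℕ :=
  ((univ : Finset ((Fin k → Fin n) × (Fin k → Fin n))).filter (fun p =>
    StrictMono p.1 ∧ StrictMono p.2 ∧ ∀ i j, A (p.1 i) (p.2 j) = H i j)).card

/-- Number of positions where two matrices differ. -/
noncomputable def entryDiff {n : ℕ} (A B : Fin n → Fin n → Bool) : ℕ :=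
  ((univ : Finset (Fin n × Fin n)).filter (fun e => A e.1 e.2 ≠ B e.1 e.2)).card

/-- The removal bound for one pattern. -/
def Good (H : Fin 2 → Fin 2 → Bool) : Prop :=
  ∀ (n : ℕ) (A : Fin n → Fin n → Bool) (ε : ℝ), 0 < ε → ε < 1 →
    (∀ B : Fin n → Fin n → Bool, copies H B = 0 → ε * (n : ℝ) ^ 2 ≤ (entryDiff A B : ℝ)) →
    ε ^ 28 * (n : ℝ) ^ 4 / 10 ^ 31 ≤ (copies H A : ℝ)

theorem Good_of_sym (T : ∀ {n : ℕ}, (Fin n → Fin n → Bool) → (Fin n → Fin n → Bool))
    (H H' : Fin 2 → Fin 2 → Bool)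
    (hTT : ∀ {n : ℕ} (A : Fin n → Fin n → Bool), T (T A) = A)
    (hc : ∀ {n : ℕ} (A : Fin n → Fin n → Bool), copies H' A = copies H (T A))
    (hd : ∀ {n : ℕ} (A B : Fin n → Fin n → Bool), entryDiff (T A) (T B) = entryDiff A B)
    (hG : Good H) : Good H' := by
  intro n A ε h0 h1 hfar
  rw [hc]
  apply hG n (T A) ε h0 h1
  intro B hB
  have h2 := hfar (T B) (by rw [hc, hTT]; exact hB)
  have h3 := hd A (T B)
  rw [hTT] at h3
  rw [h3]
  exact h2

/-! ### The four symmetries -/

theorem copies_compl {k n : ℕ} (H : Fin k → Fin k → Bool) (A : Fin n → Fin n → Bool) :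
    copies (fun i j => !(H i j)) A = copies H (fun r c => !(A r c)) := by
  unfold copies
  congr 1
  ext p
  simp only [mem_filter, mem_univ, true_and]
  refine and_congr_right fun _ => and_congr_right fun _ =>
    forall_congr' fun i => forall_congr' fun j => ?_
  cases A (p.1 i) (p.2 j) <;> cases H i j <;> simp

theorem entryDiff_compl {n : ℕ} (A B : Fin n → Fin n → Bool) :
    entryDiff (fun r c => !(A r c)) (fun r c => !(B r c)) = entryDiff A B := by
  unfold entryDiff
  congr 1
  ext e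
  simp only [mem_filter, mem_univ, true_and, ne_eq]
  cases A e.1 e.2 <;> cases B e.1 e.2 <;> simp

theorem Good_compl (H : Fin 2 → Fin 2 → Bool) (hG : Good H) : Good (fun i j => !(H i j)) :=
  Good_of_sym (fun A r c => !(A r c)) H _ (fun A => by funext r c; simp)
    (fun A => copies_compl H A) (fun A B => entryDiff_compl A B) hG

theorem copies_trans {k n : ℕ} (H : Fin k → Fin k → Bool) (A : Fin n → Fin n → Bool) :
    copies (fun i j => H j i) A = copies H (fun r c => A c r) := by
  unfold copies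
  apply Finset.card_equiv (Equiv.prodComm _ _)
  rintro ⟨p, q⟩
  simp only [mem_filter, mem_univ, true_and, Equiv.prodComm_apply, Prod.swap_prod_mk]
  constructor
  · rintro ⟨h1, h2, h3⟩
    exact ⟨h2, h1, fun i j => h3 j i⟩
  · rintro ⟨h1, h2, h3⟩
    exact ⟨h2, h1, fun i j => h3 j i⟩

theorem entryDiff_trans {n : ℕ} (A B : Fin n → Fin n → Bool) :
    entryDiff (fun r c => A c r) (fun r c => B c r) = entryDiff A B := by
  unfold entryDiff
  apply Finset.card_equiv (Equiv.prodComm _ _)
  rintro ⟨p, q⟩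
  simp

theorem Good_trans (H : Fin 2 → Fin 2 → Bool) (hG : Good H) : Good (fun i j => H j i) :=
  Good_of_sym (fun A r c => A c r) H _ (fun _ => rfl)
    (fun A => copies_trans H A) (fun A B => entryDiff_trans A B) hG

/-- Reversal on increasing maps. -/
def revMap {k n : ℕ} (p : Fin k → Fin n) : Fin k → Fin n := fun i => Fin.rev (p (Fin.rev i))

theorem revMap_revMap {k n : ℕ} (p : Fin k → Fin n) : revMap (revMap p) = p := by
  funext i
  simp [revMap]

theorem revMap_mono {k n : ℕ} {p : Fin k → Fin n} (h : StrictMono p) : StrictMono (revMap p) := by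
  intro i j hij
  apply Fin.rev_lt_rev.2
  apply h
  exact Fin.rev_lt_rev.2 hij

theorem revMap_mono_iff {k n : ℕ} {p : Fin k → Fin n} : StrictMono (revMap p) ↔ StrictMono p := by
  refine ⟨fun h => ?_, revMap_mono⟩
  have := revMap_mono h
  rwa [revMap_revMap] at this

/-- The reversal as a bijection on maps. -/
def revEquiv (k n : ℕ) : (Fin k → Fin n) ≃ (Fin k → Fin n) where
  toFun := revMap
  invFun := revMap
  left_inv := revMap_revMap
  right_inv := revMap_revMap

theorem copies_rowrev {k n : ℕ} (H : Fin k → Fin k → Bool) (A : Fin n → Fin n → Bool) :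
    copies (fun i j => H (Fin.rev i) j) A = copies H (fun r c => A (Fin.rev r) c) := by
  unfold copies
  apply Finset.card_equiv ((revEquiv k n).prodCongr (Equiv.refl _))
  rintro ⟨p, q⟩
  simp only [mem_filter, mem_univ, true_and, Equiv.prodCongr_apply, Prod.map_apply, revEquiv,
    Equiv.coe_fn_mk, Equiv.refl_apply, revMap_mono_iff]
  refine and_congr_right fun _ => and_congr_right fun _ => ?_
  constructor
  · intro h i j
    have := h (Fin.rev i) j
    simpa [revMap] using this
  · intro h i j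
    have := h (Fin.rev i) j
    simpa [revMap] using this

theorem copies_colrev {k n : ℕ} (H : Fin k → Fin k → Bool) (A : Fin n → Fin n → Bool) :
    copies (fun i j => H i (Fin.rev j)) A = copies H (fun r c => A r (Fin.rev c)) := by
  unfold copies
  apply Finset.card_equiv ((Equiv.refl _).prodCongr (revEquiv k n))
  rintro ⟨p, q⟩
  simp only [mem_filter, mem_univ, true_and, Equiv.prodCongr_apply, Prod.map_apply, revEquiv,
    Equiv.coe_fn_mk, Equiv.refl_apply, revMap_mono_iff]
  refine and_congr_right fun _ => and_congr_right fun _ => ?_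
  constructor
  · intro h i j
    have := h i (Fin.rev j)
    simpa [revMap] using this
  · intro h i j
    have := h i (Fin.rev j)
    simpa [revMap] using this

theorem entryDiff_rowrev {n : ℕ} (A B : Fin n → Fin n → Bool) :
    entryDiff (fun r c => A (Fin.rev r) c) (fun r c => B (Fin.rev r) c) = entryDiff A B := by
  unfold entryDiff
  apply Finset.card_equiv (Fin.revPerm.prodCongr (Equiv.refl _))
  rintro ⟨p, q⟩
  simp

theorem entryDiff_colrev {n : ℕ} (A B : Fin n → Fin n → Bool) :
    entryDiff (fun r c => A r (Fin.rev c)) (fun r c => B r (Fin.rev c)) = entryDiff A B := by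
  unfold entryDiff
  apply Finset.card_equiv ((Equiv.refl _).prodCongr Fin.revPerm)
  rintro ⟨p, q⟩
  simp

theorem Good_rowrev (H : Fin 2 → Fin 2 → Bool) (hG : Good H) : Good (fun i j => H (Fin.rev i) j) :=
  Good_of_sym (fun A r c => A (Fin.rev r) c) H _ (fun A => by funext r c; simp)
    (fun A => copies_rowrev H A) (fun A B => entryDiff_rowrev A B) hG

theorem Good_colrev (H : Fin 2 → Fin 2 → Bool) (hG : Good H) : Good (fun i j => H i (Fin.rev j)) :=
  Good_of_sym (fun A r c => A r (Fin.rev c)) H _ (fun A => by funext r c; simp)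
    (fun A => copies_colrev H A) (fun A B => entryDiff_colrev A B) hG

/-! ### Translation between copies and pairs of rows and columns -/

/-- The pattern with prescribed entries. -/
def pat (a b c d : Bool) : Fin 2 → Fin 2 → Bool := ![![a, b], ![c, d]]

theorem copies_zero_of_free {n : ℕ} (a b c d : Bool) (B : Fin n → Fin n → Bool)
    (hB : ∀ r1 r2 c1 c2, r1 < r2 → c1 < c2 →
      ¬ (B r1 c1 = a ∧ B r1 c2 = b ∧ B r2 c1 = c ∧ B r2 c2 = d)) :
    copies (pat a b c d) B = 0 := by
  unfold copies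
  rw [Finset.card_eq_zero, Finset.filter_eq_empty_iff]
  rintro ⟨r, s⟩ - ⟨hr, hc, h⟩
  have h00 := h 0 0
  have h01 := h 0 1
  have h10 := h 1 0
  have h11 := h 1 1
  exact hB (r 0) (r 1) (s 0) (s 1) (hr (by decide)) (hc (by decide)) ⟨h00, h01, h10, h11⟩

/-- Copies counted through the two rows. -/
noncomputable def rowCount {n : ℕ} (a b c d : Bool) (A : Fin n → Fin n → Bool) (r0 r : Fin n) : ℕ :=
  (univ.filter (fun p : Fin n × Fin n => r0 < r ∧ p.1 < p.2 ∧ A r0 p.1 = a ∧ A r0 p.2 = b ∧
    A r p.1 = c ∧ A r p.2 = d)).card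

theorem sum_rowCount_le {n : ℕ} (a b c d : Bool) (A : Fin n → Fin n → Bool) :
    ∑ r0, ∑ r, rowCount a b c d A r0 r ≤ copies (pat a b c d) A := by
  unfold copies rowCount
  have hsum : ∑ r0, ∑ r, (univ.filter (fun p : Fin n × Fin n => r0 < r ∧ p.1 < p.2 ∧ A r0 p.1 = a ∧
      A r0 p.2 = b ∧ A r p.1 = c ∧ A r p.2 = d)).card =
      (((univ : Finset (Fin n)).sigma (fun r0 => (univ : Finset (Fin n)).sigma
        (fun r => univ.filter (fun p : Fin n × Fin n => r0 < r ∧ p.1 < p.2 ∧ A r0 p.1 = a ∧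
      A r0 p.2 = b ∧ A r p.1 = c ∧ A r p.2 = d)))).card) := by
    rw [Finset.card_sigma]
    apply Finset.sum_congr rfl
    intro r0 _
    rw [Finset.card_sigma]
  rw [hsum]
  apply Finset.card_le_card_of_injOn
    (fun q => ((![q.1, q.2.1], ![q.2.2.1, q.2.2.2]) : (Fin 2 → Fin n) × (Fin 2 → Fin n)))
  · rintro ⟨r0, r, p⟩ hq
    simp only [coe_sigma, Set.mem_sigma_iff, mem_coe, mem_univ, true_and, mem_filter] at hq
    obtain ⟨h1, h2, h3, h4, h5, h6⟩ := hq
    simp only [coe_filter, mem_univ, true_and, Set.mem_ofPred_eq]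
    refine ⟨?_, ?_, ?_⟩
    · intro i j hij
      fin_cases i <;> fin_cases j <;> simp_all
    · intro i j hij
      fin_cases i <;> fin_cases j <;> simp_all
    · intro i j
      fin_cases i <;> fin_cases j <;> simp_all [pat]
  · rintro ⟨c1, c2, p⟩ _ ⟨d1, d2, q⟩ _ h
    simp only [Prod.mk.injEq] at h
    obtain ⟨h1, h2⟩ := h
    have e1 := congrFun h1 0
    have e2 := congrFun h1 1
    have e3 := congrFun h2 0
    have e4 := congrFun h2 1
    simp at e1 e2 e3 e4
    subst e1
    subst e2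
    have : p = q := Prod.ext e3 e4
    subst this
    rfl

/-! ### The pattern with an odd entry -/

theorem Good_gamma : Good (pat true true true false) := by
  intro n A ε h0 h1 hfar
  have h2 := P037Gamma.main A ε h0 h1 (fun B hB => by
    have := hfar B (copies_zero_of_free _ _ _ _ B hB)
    unfold entryDiff at this
    convert this)
  refine h2.trans ?_
  have h3 : P037Gamma.NN A ≤ copies (pat true true true false) A := by
    refine le_trans (le_of_eq ?_) (sum_rowCount_le true true true false A)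
    unfold P037Gamma.NN P037Gamma.M rowCount
    rfl
  exact_mod_cast h3

/-! ### The diagonal pattern -/

theorem NN_le_copies_diag {n : ℕ} (A : Fin n → Fin n → Bool) :
    P037Diag.NN A ≤ copies (pat true false false true) A := by
  unfold P037Diag.NN copies P037Diag.M
  set Q := (univ : Finset ((Fin 2 → Fin n) × (Fin 2 → Fin n))).filter (fun p =>
    StrictMono p.1 ∧ StrictMono p.2 ∧ ∀ i j, A (p.1 i) (p.2 j) = pat true false false true i j)
    with hQ
  set F : Fin n → Fin n → Finset (Fin n × Fin n) := fun c' c =>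
    (univ : Finset (Fin n × Fin n)).filter (fun p => p.1 < p.2 ∧ c' < c ∧ A p.1 c' = true ∧
      A p.2 c' = false ∧ A p.1 c = false ∧ A p.2 c = true) with hF
  have hsum : ∑ c', ∑ c, (F c' c).card =
      (((univ : Finset (Fin n)).sigma (fun c' => (univ : Finset (Fin n)).sigma
        (fun c => F c' c))).card) := by
    rw [Finset.card_sigma]
    apply Finset.sum_congr rfl
    intro c' _
    rw [Finset.card_sigma]
  rw [hsum]
  apply Finset.card_le_card_of_injOn
    (fun q => ((![q.2.2.1, q.2.2.2], ![q.1, q.2.1]) : (Fin 2 → Fin n) × (Fin 2 → Fin n)))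
  · rintro ⟨c', c, p⟩ hq
    simp only [coe_sigma, Set.mem_sigma_iff, mem_coe, mem_univ, true_and, hF, mem_filter] at hq
    obtain ⟨h1, h2, h3, h4, h5, h6⟩ := hq
    simp only [hQ, coe_filter, mem_univ, true_and, Set.mem_ofPred_eq]
    refine ⟨?_, ?_, ?_⟩
    · intro i j hij
      fin_cases i <;> fin_cases j <;> simp_all
    · intro i j hij
      fin_cases i <;> fin_cases j <;> simp_all
    · intro i j
      fin_cases i <;> fin_cases j <;> simp_all [pat]
  · rintro ⟨c1, c2, p⟩ _ ⟨d1, d2, q⟩ _ h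
    simp only [Prod.mk.injEq] at h
    obtain ⟨h1, h2⟩ := h
    have e1 := congrFun h1 0
    have e2 := congrFun h1 1
    have e3 := congrFun h2 0
    have e4 := congrFun h2 1
    simp at e1 e2 e3 e4
    subst e3
    subst e4
    have : p = q := Prod.ext e1 e2
    subst this
    rfl

theorem Good_diag : Good (pat true false false true) := by
  intro n A ε h0 h1 hfar
  have h2 := P037Diag.main A ε h0 h1 (fun B hB => by
    have := hfar B (copies_zero_of_free _ _ _ _ B hB)
    unfold entryDiff at this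
    convert this)
  have h3 : (P037Diag.NN A : ℝ) ≤ (copies (pat true false false true) A : ℝ) := by
    exact_mod_cast NN_le_copies_diag A
  refine le_trans ?_ (h2.trans h3)
  have h4 : ε ^ 28 ≤ ε ^ 10 := pow_le_pow_of_le_one h0.le h1.le (by norm_num)
  have h5 : ε ^ 28 * (n : ℝ) ^ 4 ≤ ε ^ 10 * (n : ℝ) ^ 4 :=
    mul_le_mul_of_nonneg_right h4 (by positivity)
  have h6 : 0 ≤ ε ^ 10 * (n : ℝ) ^ 4 := by positivity
  calc ε ^ 28 * (n : ℝ) ^ 4 / 10 ^ 31 ≤ ε ^ 10 * (n : ℝ) ^ 4 / 10 ^ 31 :=
        div_le_div_of_nonneg_right h5 (by norm_num)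
    _ ≤ _ := div_le_div_of_nonneg_left h6 (by norm_num) (by norm_num)

/-! ### Patterns with constant rows -/

/-- Columns carrying the value `a` in row `r0` and `b` in the later row `r`. -/
noncomputable def colSet {n : ℕ} (a b : Bool) (A : Fin n → Fin n → Bool) (r0 r : Fin n) :
    Finset (Fin n) :=
  univ.filter (fun c => r0 < r ∧ A r0 c = a ∧ A r c = b)

/-- Pairs of rows carrying the value `a` and then `b` in the column `c`. -/
noncomputable def rowPairs {n : ℕ} (a b : Bool) (A : Fin n → Fin n → Bool) (c : Fin n) :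
    Finset (Fin n × Fin n) :=
  univ.filter (fun p => p.1 < p.2 ∧ A p.1 c = a ∧ A p.2 c = b)

theorem rowCount_eq {n : ℕ} (a b : Bool) (A : Fin n → Fin n → Bool) (r0 r : Fin n) :
    2 * rowCount a a b b A r0 r = (colSet a b A r0 r).card * ((colSet a b A r0 r).card - 1) := by
  have h : rowCount a a b b A r0 r =
      (((colSet a b A r0 r) ×ˢ (colSet a b A r0 r)).filter (fun p => p.1 < p.2)).card := by
    unfold rowCount colSet
    congr 1
    ext ⟨x, y⟩
    simp only [mem_filter, mem_univ, true_and, mem_product]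
    constructor
    · rintro ⟨h1, h2, h3, h4, h5, h6⟩
      exact ⟨⟨⟨h1, h3, h5⟩, h1, h4, h6⟩, h2⟩
    · rintro ⟨⟨⟨h1, h3, h5⟩, _, h4, h6⟩, h2⟩
      exact ⟨h1, h2, h3, h4, h5, h6⟩
  rw [h]
  convert P037Gamma.card_lt_pairs (colSet a b A r0 r)

theorem sum_colSet {n : ℕ} (a b : Bool) (A : Fin n → Fin n → Bool) :
    ∑ r0, ∑ r, (colSet a b A r0 r).card = ∑ c, (rowPairs a b A c).card := by
  unfold colSet rowPairs
  simp only [Finset.card_filter, Fintype.sum_prod_type]
  calc _ = ∑ r0 : Fin n, ∑ c : Fin n, ∑ r : Fin n,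
        (if r0 < r ∧ A r0 c = a ∧ A r c = b then 1 else 0) :=
        Finset.sum_congr rfl (fun _ _ => Finset.sum_comm)
    _ = _ := Finset.sum_comm

theorem const_numeric (e m T N : ℝ) (he : 0 < e) (hm : 0 < m) (hT : e ^ 2 * m ^ 3 / 8 ≤ T)
    (hl : 16 ≤ e ^ 2 * m) (hTN : T ^ 2 ≤ m ^ 2 * (2 * N + T)) : e ^ 4 * m ^ 4 / 256 ≤ N := by
  have hm2 : 0 < m ^ 2 := by positivity
  have h1 : 2 * m ^ 2 ≤ T := by
    have : 16 * m ^ 2 ≤ (e ^ 2 * m) * m ^ 2 := mul_le_mul_of_nonneg_right hl hm2.le
    have e1 : (e ^ 2 * m) * m ^ 2 = e ^ 2 * m ^ 3 := by ring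
    rw [e1] at this
    linarith
  have hT0 : 0 < T := by linarith
  have h2 : m ^ 2 * T ≤ T ^ 2 / 2 := by
    have : (2 * m ^ 2) * T ≤ T * T := mul_le_mul_of_nonneg_right h1 hT0.le
    nlinarith
  have h3 : T ^ 2 ≤ 4 * (m ^ 2 * N) := by nlinarith
  have h4 : (e ^ 2 * m ^ 3 / 8) ^ 2 ≤ T ^ 2 := pow_le_pow_left₀ (by positivity) hT 2
  have h5 : m ^ 2 * (e ^ 4 * m ^ 4 / 256) ≤ m ^ 2 * N := by
    have e1 : (e ^ 2 * m ^ 3 / 8) ^ 2 = 4 * (m ^ 2 * (e ^ 4 * m ^ 4 / 256)) := by ring
    rw [e1] at h4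
    linarith
  exact le_of_mul_le_mul_left h5 hm2

theorem const_core {n : ℕ} (a b : Bool) (A : Fin n → Fin n → Bool) (z : Fin n → ℕ)
    (hz : ∀ c, z c * z c ≤ 2 * (rowPairs a b A c).card) (ε : ℝ) (h0 : 0 < ε)
    (hsum : ε * (n : ℝ) ^ 2 / 2 ≤ ∑ c, (z c : ℝ)) (hl : 16 ≤ ε ^ 2 * (n : ℝ)) :
    ε ^ 4 * (n : ℝ) ^ 4 / 256 ≤ (copies (pat a a b b) A : ℝ) := by
  have hm : (0 : ℝ) < n := by
    by_contra h
    have h2 : (n : ℝ) ≤ 0 := not_lt.1 h
    have h3 : ε ^ 2 * (n : ℝ) ≤ 0 := mul_nonpos_of_nonneg_of_nonpos (by positivity) h2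
    linarith
  set T : ℝ := ((∑ r0, ∑ r, (colSet a b A r0 r).card : ℕ) : ℝ) with hT
  set N : ℝ := ((∑ r0, ∑ r, rowCount a a b b A r0 r : ℕ) : ℝ) with hN
  have h1 : (∑ c, (z c : ℝ)) ^ 2 ≤ (n : ℝ) * (2 * T) := by
    have h2 : (∑ c, (z c : ℝ)) ^ 2 ≤ (n : ℝ) * ∑ c, (z c : ℝ) ^ 2 := by
      have := sq_sum_le_card_mul_sum_sq (s := (univ : Finset (Fin n))) (f := fun c => (z c : ℝ))
      simpa using this
    have h3 : ∑ c, (z c : ℝ) ^ 2 ≤ 2 * T := by
      rw [hT, sum_colSet]
      push_cast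
      rw [Finset.mul_sum]
      apply Finset.sum_le_sum
      intro c _
      have := hz c
      have h4 : (z c : ℝ) * (z c : ℝ) ≤ 2 * ((rowPairs a b A c).card : ℝ) := by exact_mod_cast this
      rw [sq]
      exact h4
    exact h2.trans (mul_le_mul_of_nonneg_left h3 hm.le)
  have hT1 : ε ^ 2 * (n : ℝ) ^ 3 / 8 ≤ T := by
    have h2 : (ε * (n : ℝ) ^ 2 / 2) ^ 2 ≤ (∑ c, (z c : ℝ)) ^ 2 :=
      pow_le_pow_left₀ (by positivity) hsum 2
    have h3 : (n : ℝ) * (ε ^ 2 * (n : ℝ) ^ 3 / 8) ≤ (n : ℝ) * T := by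
      have e1 : (ε * (n : ℝ) ^ 2 / 2) ^ 2 = 2 * ((n : ℝ) * (ε ^ 2 * (n : ℝ) ^ 3 / 8)) := by ring
      have e2 : (n : ℝ) * (2 * T) = 2 * ((n : ℝ) * T) := by ring
      rw [e1] at h2
      rw [e2] at h1
      linarith
    exact le_of_mul_le_mul_left h3 hm
  have hTN : T ^ 2 ≤ (n : ℝ) ^ 2 * (2 * N + T) := by
    have h2 : T ^ 2 ≤ (n : ℝ) ^ 2 *
        ∑ p : Fin n × Fin n, (((colSet a b A p.1 p.2).card : ℝ)) ^ 2 := by
      have := sq_sum_le_card_mul_sum_sq (s := (univ : Finset (Fin n × Fin n)))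
        (f := fun p => ((colSet a b A p.1 p.2).card : ℝ))
      have e1 : (((univ : Finset (Fin n × Fin n)).card : ℕ) : ℝ) = (n : ℝ) ^ 2 := by
        simp [Finset.card_univ, sq]
      rw [e1] at this
      have e2 : ∑ p : Fin n × Fin n, ((colSet a b A p.1 p.2).card : ℝ) = T := by
        rw [hT, Fintype.sum_prod_type]
        push_cast
        rfl
      rw [e2] at this
      exact this
    have h3 : ∑ p : Fin n × Fin n, (((colSet a b A p.1 p.2).card : ℝ)) ^ 2 ≤ 2 * N + T := by
      rw [hN, hT, Fintype.sum_prod_type]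
      push_cast
      rw [Finset.mul_sum, ← Finset.sum_add_distrib]
      apply Finset.sum_le_sum
      intro r0 _
      rw [Finset.mul_sum, ← Finset.sum_add_distrib]
      apply Finset.sum_le_sum
      intro r _
      have h4 := rowCount_eq a b A r0 r
      set x := (colSet a b A r0 r).card with hx
      have h5 : x * x = 2 * rowCount a a b b A r0 r + x := by
        rw [h4]
        rcases Nat.eq_zero_or_pos x with h | h
        · simp [h]
        · obtain ⟨y, hy⟩ : ∃ y, x = y + 1 := ⟨x - 1, by omega⟩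
          rw [hy]
          simp only [Nat.add_sub_cancel]
          ring
      have h6 : (x : ℝ) * (x : ℝ) = 2 * (rowCount a a b b A r0 r : ℝ) + (x : ℝ) := by
        exact_mod_cast h5
      rw [sq]
      exact h6.le
    exact h2.trans (mul_le_mul_of_nonneg_left h3 (by positivity))
  have h2 := const_numeric ε (n : ℝ) T N h0 hm hT1 hl hTN
  refine h2.trans ?_
  rw [hN]
  exact_mod_cast sum_rowCount_le a a b b A

theorem Good_of_large (a b c d : Bool)
    (h : ∀ (n : ℕ) (A : Fin n → Fin n → Bool) (ε : ℝ), 0 < ε → ε < 1 →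
      (∀ B : Fin n → Fin n → Bool, copies (pat a b c d) B = 0 →
        ε * (n : ℝ) ^ 2 ≤ (entryDiff A B : ℝ)) → 5 * 10 ^ 7 ≤ ε ^ 7 * (n : ℝ) →
      ε ^ 28 * (n : ℝ) ^ 4 / 10 ^ 31 ≤ (copies (pat a b c d) A : ℝ)) : Good (pat a b c d) := by
  intro n A ε h0 h1 hfar
  by_cases hsize : 5 * 10 ^ 7 ≤ ε ^ 7 * (n : ℝ)
  · exact h n A ε h0 h1 hfar hsize
  · have hsmall : ε ^ 7 * (n : ℝ) < 5 * 10 ^ 7 := not_le.1 hsize
    rcases Nat.eq_zero_or_pos (copies (pat a b c d) A) with hz | hp
    · have h3 := hfar A hz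
      have h4 : entryDiff A A = 0 := by
        unfold entryDiff
        rw [Finset.card_eq_zero, Finset.filter_eq_empty_iff]
        intro e _ h
        exact h rfl
      rw [h4] at h3
      simp only [Nat.cast_zero] at h3
      have h5 : ε * (n : ℝ) ^ 2 = 0 := le_antisymm h3 (by positivity)
      have h6 : (n : ℝ) = 0 := by
        rcases mul_eq_zero.1 h5 with h | h
        · exact absurd h h0.ne'
        · exact pow_eq_zero_iff (by norm_num) |>.1 h
      rw [h6]
      have h7 : ε ^ 28 * (0 : ℝ) ^ 4 / 10 ^ 31 = 0 := by norm_num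
      rw [h7]
      exact Nat.cast_nonneg _
    · have h2 : (1 : ℝ) ≤ (copies (pat a b c d) A : ℝ) := by exact_mod_cast hp
      have h3 : ε ^ 28 * (n : ℝ) ^ 4 = (ε ^ 7 * (n : ℝ)) ^ 4 := by ring
      have h4 : (ε ^ 7 * (n : ℝ)) ^ 4 ≤ (5 * 10 ^ 7) ^ 4 :=
        pow_le_pow_left₀ (by positivity) hsmall.le 4
      rw [h3]
      calc (ε ^ 7 * (n : ℝ)) ^ 4 / 10 ^ 31 ≤ (5 * 10 ^ 7) ^ 4 / 10 ^ 31 :=
            div_le_div_of_nonneg_right h4 (by norm_num)
        _ ≤ 1 := by norm_num
        _ ≤ _ := h2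

/-- Passing from the bound with exponent four to the uniform bound. -/
theorem weaken_bound (ε m : ℝ) (h0 : 0 < ε) (h1 : ε < 1) (_hm : 0 ≤ m) :
    ε ^ 28 * m ^ 4 / 10 ^ 31 ≤ ε ^ 4 * m ^ 4 / 256 := by
  have h4 : ε ^ 28 ≤ ε ^ 4 := pow_le_pow_of_le_one h0.le h1.le (by norm_num)
  have h5 : ε ^ 28 * m ^ 4 ≤ ε ^ 4 * m ^ 4 := mul_le_mul_of_nonneg_right h4 (by positivity)
  have h6 : 0 ≤ ε ^ 4 * m ^ 4 := by positivity
  calc ε ^ 28 * m ^ 4 / 10 ^ 31 ≤ ε ^ 4 * m ^ 4 / 10 ^ 31 :=
        div_le_div_of_nonneg_right h5 (by norm_num)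
    _ ≤ _ := div_le_div_of_nonneg_left h6 (by norm_num) (by norm_num)

theorem size_facts (ε m : ℝ) (h0 : 0 < ε) (h1 : ε < 1) (hm : 0 ≤ m) (hs : 5 * 10 ^ 7 ≤ ε ^ 7 * m) :
    16 ≤ ε ^ 2 * m ∧ 2 ≤ ε * m := by
  have h2 : ε ^ 7 ≤ ε ^ 2 := pow_le_pow_of_le_one h0.le h1.le (by norm_num)
  have h3 : ε ^ 7 ≤ ε := by
    calc ε ^ 7 ≤ ε ^ 1 := pow_le_pow_of_le_one h0.le h1.le (by norm_num)
      _ = ε := pow_one ε
  have h4 : ε ^ 7 * m ≤ ε ^ 2 * m := mul_le_mul_of_nonneg_right h2 hm
  have h5 : ε ^ 7 * m ≤ ε * m := mul_le_mul_of_nonneg_right h3 hm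
  norm_num at hs
  constructor <;> linarith

/-- The all ones pattern. -/
theorem Good_ones : Good (pat true true true true) := by
  apply Good_of_large
  intro n A ε h0 h1 hfar hs
  obtain ⟨hl, hl2⟩ := size_facts ε (n : ℝ) h0 h1 (Nat.cast_nonneg _) hs
  refine (weaken_bound ε (n : ℝ) h0 h1 (Nat.cast_nonneg _)).trans ?_
  have hm : (0 : ℝ) < n := by
    by_contra h
    have h2 : (n : ℝ) ≤ 0 := not_lt.1 h
    have h3 : ε * (n : ℝ) ≤ 0 := mul_nonpos_of_nonneg_of_nonpos h0.le h2
    linarith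
  set Y : Fin n → Finset (Fin n) := fun c => univ.filter (fun r => A r c = true) with hY
  have hfree := hfar (fun _ _ => false) (by
    apply copies_zero_of_free
    rintro r1 r2 c1 c2 _ _ ⟨h, _⟩
    exact absurd h (by simp))
  have hdiff : entryDiff A (fun _ _ => false) = ∑ c, (Y c).card := by
    unfold entryDiff
    simp only [Finset.card_filter, hY, Fintype.sum_prod_type_right]
    apply Finset.sum_congr rfl
    intro c _
    apply Finset.sum_congr rfl
    intro r _
    cases A r c <;> simp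
  apply const_core true true A (fun c => (Y c).card - 1) ?_ ε h0 ?_ hl
  · intro c
    have h2 := P037Gamma.card_lt_pairs (Y c)
    have h3 : rowPairs true true A c = ((Y c) ×ˢ (Y c)).filter (fun p => p.1 < p.2) := by
      unfold rowPairs
      ext ⟨x, y⟩
      simp only [mem_filter, mem_univ, true_and, mem_product, hY]
      tauto
    have h4 : 2 * (rowPairs true true A c).card = (Y c).card * ((Y c).card - 1) := by
      rw [h3]
      convert h2
    rw [h4]
    exact Nat.mul_le_mul_right _ (Nat.sub_le _ _)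
  · rw [hdiff] at hfree
    have h2 : (((∑ c, (Y c).card : ℕ)) : ℝ) ≤ ∑ c, ((((Y c).card - 1 : ℕ)) : ℝ) + (n : ℝ) := by
      push_cast
      have : ∑ c, ((Y c).card : ℝ) ≤ ∑ c, ((((Y c).card - 1 : ℕ) : ℝ) + 1) := by
        apply Finset.sum_le_sum
        intro c _
        have h3 : (Y c).card ≤ ((Y c).card - 1) + 1 := by omega
        exact_mod_cast h3
      refine this.trans (le_of_eq ?_)
      rw [Finset.sum_add_distrib]
      simp
    have h3 : 2 * (n : ℝ) ≤ ε * (n : ℝ) ^ 2 := by
      have : 2 * (n : ℝ) ≤ (ε * (n : ℝ)) * (n : ℝ) := mul_le_mul_of_nonneg_right hl2 hm.le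
      calc 2 * (n : ℝ) ≤ (ε * (n : ℝ)) * (n : ℝ) := this
        _ = ε * (n : ℝ) ^ 2 := by ring
    linarith

/-- The pattern with a row of ones above a row of zeros. -/
theorem Good_rows : Good (pat true true false false) := by
  apply Good_of_large
  intro n A ε h0 h1 hfar hs
  obtain ⟨hl, _⟩ := size_facts ε (n : ℝ) h0 h1 (Nat.cast_nonneg _) hs
  refine (weaken_bound ε (n : ℝ) h0 h1 (Nat.cast_nonneg _)).trans ?_
  set U : Fin n → Finset (Fin n) := fun c => univ.filter (fun r => A r c = true) with hU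
  set V : Fin n → Finset (Fin n) := fun c => univ.filter (fun r => A r c = false) with hV
  have hdisj : ∀ c, Disjoint (U c) (V c) := by
    intro c
    rw [Finset.disjoint_left]
    intro x hx hx'
    simp only [hU, hV, mem_filter, mem_univ, true_and] at hx hx'
    rw [hx] at hx'
    exact absurd hx' (by simp)
  have hinj : Set.InjOn (fun x : Fin n => (x : ℕ)) ((univ : Finset (Fin n)) : Set (Fin n)) := by
    intro x _ y _ h
    exact Fin.ext h
  choose t z hz1 hz2 hz3 using fun c => P037Diag.cut univ (U c) (V c) (fun x : Fin n => (x : ℕ))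
    (Finset.subset_univ _) (Finset.subset_univ _) (hdisj c) hinj
  have hfree := hfar (fun r c => decide (t c ≤ (r : ℕ))) (by
    apply copies_zero_of_free
    rintro r1 r2 c1 c2 hr _ ⟨h2, _, h3, _⟩
    have h4 : t c1 ≤ (r1 : ℕ) := by simpa using h2
    have h5 : (r2 : ℕ) < t c1 := by simpa using h3
    have h6 : (r1 : ℕ) < r2 := Fin.lt_def.1 hr
    omega)
  have hdiff : entryDiff A (fun r c => decide (t c ≤ (r : ℕ))) = ∑ c, 2 * z c := by
    unfold entryDiff
    rw [Finset.card_filter, Fintype.sum_prod_type_right]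
    apply Finset.sum_congr rfl
    intro c _
    rw [← Finset.card_filter]
    have h2 : univ.filter (fun r : Fin n => A r c ≠ decide (t c ≤ (r : ℕ))) =
        (U c).filter (fun x : Fin n => (x : ℕ) < t c) ∪
          (V c).filter (fun x : Fin n => t c ≤ (x : ℕ)) := by
      ext r
      simp only [mem_filter, mem_univ, true_and, mem_union, hU, hV]
      cases A r c <;> by_cases h : t c ≤ (r : ℕ) <;> simp [h] <;> omega
    have h3 : Disjoint ((U c).filter (fun x : Fin n => (x : ℕ) < t c))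
        ((V c).filter (fun x : Fin n => t c ≤ (x : ℕ))) :=
      Finset.disjoint_filter_filter (hdisj c)
    simp only at h2 ⊢
    rw [h2, Finset.card_union_of_disjoint h3, hz1, hz2]
    ring
  apply const_core true false A z ?_ ε h0 ?_ hl
  · intro c
    have h2 := hz3 c
    have h3 : ((U c ×ˢ V c).filter (fun p => (p.1 : ℕ) < p.2)).card ≤
        (rowPairs true false A c).card := by
      apply Finset.card_le_card
      rintro ⟨x, y⟩ hp
      simp only [hU, hV, mem_filter, mem_product, mem_univ, true_and] at hp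
      simp only [rowPairs, mem_filter, mem_univ, true_and]
      exact ⟨Fin.lt_def.2 hp.2, hp.1.1, hp.1.2⟩
    omega
  · rw [hdiff] at hfree
    push_cast at hfree
    rw [← Finset.mul_sum] at hfree
    linarith

/-! ### All sixteen patterns -/

theorem pat_rowrev {a b c d : Bool} (h : Good (pat a b c d)) : Good (pat c d a b) := by
  have := Good_rowrev _ h
  convert this using 1
  funext i j
  fin_cases i <;> fin_cases j <;> rfl

theorem pat_colrev {a b c d : Bool} (h : Good (pat a b c d)) : Good (pat b a d c) := by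
  have := Good_colrev _ h
  convert this using 1
  funext i j
  fin_cases i <;> fin_cases j <;> rfl

theorem pat_trans {a b c d : Bool} (h : Good (pat a b c d)) : Good (pat a c b d) := by
  have := Good_trans _ h
  convert this using 1
  funext i j
  fin_cases i <;> fin_cases j <;> rfl

theorem pat_compl {a b c d : Bool} (h : Good (pat a b c d)) :
    Good (pat (!a) (!b) (!c) (!d)) := by
  have := Good_compl _ h
  convert this using 1
  funext i j
  fin_cases i <;> fin_cases j <;> rfl

theorem Good_all (a b c d : Bool) : Good (pat a b c d) := by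
  have g1 : Good (pat true true true true) := Good_ones
  have g2 : Good (pat true true false false) := Good_rows
  have g3 : Good (pat true false false true) := Good_diag
  have g4 : Good (pat true true true false) := Good_gamma
  cases a <;> cases b <;> cases c <;> cases d
  · exact pat_compl g1
  · exact pat_compl g4
  · exact pat_colrev (pat_compl g4)
  · exact pat_rowrev g2
  · exact pat_rowrev (pat_compl g4)
  · exact pat_colrev (pat_trans g2)
  · exact pat_rowrev g3
  · exact pat_colrev (pat_rowrev g4)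
  · exact pat_colrev (pat_rowrev (pat_compl g4))
  · exact g3
  · exact pat_trans g2
  · exact pat_rowrev g4
  · exact g2
  · exact pat_colrev g4
  · exact g4
  · exact g1

theorem main (H : Fin 2 → Fin 2 → Bool) : Good H := by
  have h := Good_all (H 0 0) (H 0 1) (H 1 0) (H 1 1)
  convert h using 1
  funext i j
  fin_cases i <;> fin_cases j <;> rfl

end P037Sym
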